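import Vale.Agent.P184.R2.H940.Char
import Vale.Agent.P184.Bdl.B4

/-!
# Groups whose elements of infinite order are mild or have almost cocycles
-/

noncomputable section

namespace Vale.Agent.P184

namespace RH

variable {G : Type*} [Group G] {ι : Type*} {X : Set G} {H : ι → Subgroup G} {δ : ℕ}
  (S : RH X H δ)
include S

theorem almostCoc_of_peripheral {l : ι} {y : H l} (hy : ¬ IsOfFinOrder y)
    (h : H940.AlmostCoc y) : H940.AlmostCoc (y : G) := by
  have hy' : ¬ IsOfFinOrder (y : G) := by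
    rwa [Submonoid.isOfFinOrder_coe (H := (H l).toSubmonoid)]
  have hC : ∀ g : G, Commute g y → g ∈ H l := fun g hg => S.mem_of_commute y.2 hy' hg
  have hsm : ∀ (c : G) (hc : c ∈ H l) (p : G), S.prj l (c * p) = ⟨c, hc⟩ * S.prj l p :=
    fun c hc p => Subtype.ext (proj_smul hc p)
  have key : ∀ (c : G) (hc : c ∈ H l) (p : G),
      (S.prj l (p * c)⁻¹)⁻¹ = (S.prj l p⁻¹)⁻¹ * ⟨c, hc⟩ := by
    intro c hc p
    have h1 : (p * c)⁻¹ = c⁻¹ * p⁻¹ := mul_inv_rev _ _
    rw [h1, hsm c⁻¹ ((H l).inv_mem hc) p⁻¹, mul_inv_rev]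
    congr 1
    exact Subtype.ext (inv_inv c)
  refine H940.AlmostCoc.coarse (fun p => (S.prj l p⁻¹)⁻¹)
    (fun c hc => ⟨⟨c, hC c hc⟩, Subtype.ext hc, fun p => key c (hC c hc) p⟩)
    (fun p => key y y.2 p) (fun g => ?_) h
  refine ((S.finite_all_steps l (Set.finite_singleton g⁻¹)).image fun k => k⁻¹).subset ?_
  rintro _ ⟨p, rfl⟩
  refine ⟨(S.prj l p⁻¹)⁻¹ * S.prj l (p⁻¹ * g⁻¹), ⟨g⁻¹, rfl, p⁻¹, rfl⟩, ?_⟩
  simp only [mul_inv_rev, inv_inv]

end RH

namespace H940

universe u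

theorem softTor_iff {G : Type*} [Group G] : SoftTor G ↔ TGoodL G := W.tors_iff

theorem vanishesAt_of_soft {G : Type u} [Group G] {x : G} (h : W.Mild x ∨ AlmostCoc x) :
    VanishesAt x :=
  h.elim W.vanishesAt_of_mild vanishesAt_of_almostCoc

theorem l1Bass_of_soft {G : Type u} [Group G] (h1 : SoftInf G) (h2 : SoftTor G) : L1Bass G :=
  l1Bass_of_tgoodL (fun x hx => vanishesAt_of_soft (h1 x hx)) (softTor_iff.1 h2)

theorem softTor_of_finite {G : Type*} [Group G] (h : LocFinTorsion G) : SoftTor G :=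
  softTor_iff.2 (tgoodL_of_locFin h)

theorem relHyp_softInf {G : Type*} [Group G] {ι : Type*} {H : ι → Subgroup G}
    (hG : W.IsRelHyp H) (hH : ∀ k, SoftInf (H k)) : SoftInf G := by
  intro x hx
  obtain ⟨hfin, X, δ, S⟩ := (V.relHyperbolic_of (W.isRelHyp_iff.1 hG)).exists_rh
  rcases S.charged_or_parabolic hx with h | ⟨l, w, h⟩
  · exact Or.inl (W.mild_of_V (V.mild_of_charged h))
  · have hx' : ¬ IsOfFinOrder (w⁻¹ * x * w) := by
      intro h'
      apply hx
      refine IsConj.isOfFinOrder (isConj_iff.2 ⟨w, ?_⟩) h'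
      group
    have h3 : ¬ IsOfFinOrder (⟨w⁻¹ * x * w, h⟩ : H l) := by
      rwa [← Submonoid.isOfFinOrder_coe (H := (H l).toSubmonoid)]
    have hc : IsConj (w⁻¹ * x * w) x := isConj_iff.2 ⟨w, by group⟩
    rcases hH l _ h3 with h4 | h4
    · refine Or.inl (W.mild_iff.2 ?_)
      rcases W.mild_iff.1 h4 with h5 | h5
      · exact Or.inl (locCyc_conj w (S.locCyc_of_peripheral h3 h5))
      · exact Or.inr (goodD_conj hc (S.goodD_of_peripheral h3 h5))
    · exact Or.inr ((S.almostCoc_of_peripheral h3 h4).conj hc)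

theorem relHyp_softTor {G : Type*} [Group G] {ι : Type*} {H : ι → Subgroup G}
    (hG : W.IsRelHyp H) (hH : ∀ k, SoftTor (H k)) : SoftTor G :=
  softTor_iff.2 ((V.relHyperbolic_of (W.isRelHyp_iff.1 hG)).tgoodL fun k =>
    softTor_iff.1 (hH k))

theorem softInf_prod {G K : Type*} [Group G] [Group K] (hG : SoftInf G) (hK : SoftInf K) :
    SoftInf (G × K) := by
  intro x hx
  by_cases h : IsOfFinOrder x.1
  · by_cases h' : IsOfFinOrder x.2
    · exact absurd (IsOfFinOrder.prod_mk h h') hx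
    · rcases hK _ h' with h2 | h2
      · exact Or.inl (W.mild_hom (MonoidHom.snd G K) h2)
      · exact Or.inr (AlmostCoc.hom (MonoidHom.snd G K) h2)
  · rcases hG _ h with h2 | h2
    · exact Or.inl (W.mild_hom (MonoidHom.fst G K) h2)
    · exact Or.inr (AlmostCoc.hom (MonoidHom.fst G K) h2)

theorem softTor_prod {G K : Type*} [Group G] [Group K] (hG : SoftTor G) (hK : SoftTor K) :
    SoftTor (G × K) :=
  softTor_iff.2 (tgoodL_prod (softTor_iff.1 hG) (softTor_iff.1 hK))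

end H940

end Vale.Agent.P184
end
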