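import Vale.Agent.P184.R2.H940.Char
import Vale.Agent.P184.Bdl.B4

/-!
# Amenable centralizers
-/

noncomputable section

namespace Vale.Agent.P184.H940

open Vale.Agent.P184.V (Cen CoAmenable BddInv coMean_congr)

/-- The centralizer of `x` is amenable, `x` is undistorted in it with respect to the subadditive
function `N`, and `N` is bounded by a slowly growing function of a subadditive function `L` on the
whole group. -/
theorem wCharged_of_amen {G : Type*} [Group G] {x : G} (hA : CoAmenable (Cen x) ⊥)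
    {L N : G → ℝ} {w : ℕ → ℝ} (hL : ∀ g h, L (g * h) ≤ L g + L h)
    (hN : ∀ g h, Commute g x → Commute h x → N (g * h) ≤ N g + N h)
    (hNx : ∀ n : ℤ, (n : ℝ) ≤ N (x ^ n))
    (hw : ∀ n, 0 < w n) (hwm : Monotone w) (hns : ¬ Summable fun n => 1 / w n)
    (hle : ∀ g, Commute g x → N g ≤ ∑ n ∈ Finset.range ⌈L g⌉₊, w n) : WCharged x := by
  obtain ⟨m, m1, m2, m3, m4⟩ := hA
  have hmem : ∀ {g : G}, g ∈ Cen x ↔ Commute g x := fun {g} =>
    Subgroup.mem_centralizer_singleton_iff
  have hz : ∀ n : ℤ, Commute (x ^ n) x := fun n => (Commute.refl x).zpow_left n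
  -- the potential on the centralizer
  set v : G → ℤ → ℝ := fun z n => n + N (z * x ^ (-n)) with hv
  have hbd : ∀ z, Commute z x → ∀ n, -N z⁻¹ ≤ v z n := by
    intro z hc n
    have h1 := hN z⁻¹ (z * x ^ (-n)) hc.inv_left (hc.mul_left (hz _))
    have h2 : z⁻¹ * (z * x ^ (-n)) = x ^ (-n) := by group
    rw [h2] at h1
    have h3 := hNx (-n)
    push_cast at h3
    simp only [hv]
    linarith
  have hbdd : ∀ z, Commute z x → BddBelow (Set.range (v z)) := fun z hc =>
    ⟨-N z⁻¹, by rintro _ ⟨n, rfl⟩; exact hbd z hc n⟩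
  set F : G → ℝ := fun z => ⨅ n, v z n with hF
  have hFle : ∀ z, Commute z x → ∀ n, F z ≤ v z n := fun z hc n => ciInf_le (hbdd z hc) n
  have hFx : ∀ z, Commute z x → F (z * x) = F z + 1 := by
    have aux : ∀ z, Commute z x → ∀ k : ℤ, F (z * x ^ k) ≤ F z + k := by
      intro z hc k
      rw [← sub_le_iff_le_add]
      refine le_ciInf fun n => ?_
      have h1 := hFle (z * x ^ k) (hc.mul_left (hz k)) (n + k)
      have h2 : v (z * x ^ k) (n + k) = v z n + k := by
        simp only [hv]
        have : z * x ^ k * x ^ (-(n + k)) = z * x ^ (-n) := by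
          rw [mul_assoc, ← zpow_add]; congr 2; ring
        rw [this]
        push_cast
        ring
      linarith
    intro z hc
    have h1 := aux z hc 1
    have h2 := aux (z * x) (hc.mul_left (Commute.refl x)) (-1)
    have h3 : z * x * x ^ (-1 : ℤ) = z := by group
    rw [h3] at h2
    rw [zpow_one] at h1
    push_cast at h1 h2
    linarith
  have hFN : ∀ g z, Commute g x → Commute z x → F (g * z) ≤ F z + N g := by
    intro g z hg hc
    rw [← sub_le_iff_le_add]
    refine le_ciInf fun n => ?_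
    have h1 := hFle (g * z) (hg.mul_left hc) n
    have h2 := hN g (z * x ^ (-n)) hg (hc.mul_left (hz _))
    simp only [hv] at h1 ⊢
    rw [mul_assoc] at h1
    linarith
  -- averages
  set f : G → G → ℝ := fun g c => F (g * c⁻¹) - F c⁻¹ with hf
  have hfle : ∀ g c, Commute g x → Commute c x → f g c ≤ N g := by
    intro g c hg hc
    have := hFN g c⁻¹ hg hc.inv_left
    simp only [hf]
    linarith
  have hfge : ∀ g c, Commute g x → Commute c x → -N g⁻¹ ≤ f g c := by
    intro g c hg hc
    have := hFN g⁻¹ (g * c⁻¹) hg.inv_left (hg.mul_left hc.inv_left)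
    rw [inv_mul_cancel_left] at this
    simp only [hf]
    linarith
  have hbot : ∀ u : G → ℝ, ∀ d ∈ (⊥ : Subgroup G), ∀ c ∈ Cen x, u (d * c) = u c := by
    intro u d hd c _
    rw [Subgroup.mem_bot.1 hd, one_mul]
  have hfb : ∀ g, Commute g x → BddInv (Cen x) ⊥ (f g) := by
    intro g hg
    refine ⟨⟨|N g| + |N g⁻¹|, fun c hc => ?_⟩, hbot _⟩
    have h1 := hfle g c hg (hmem.1 hc)
    have h2 := hfge g c hg (hmem.1 hc)
    have h3 := le_abs_self (N g)
    have h4 := le_abs_self (N g⁻¹)
    have h5 := abs_nonneg (N g)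
    have h6 := abs_nonneg (N g⁻¹)
    rw [abs_le]
    constructor <;> linarith
  have hcb : ∀ r : ℝ, BddInv (Cen x) ⊥ (fun _ : G => r) := fun r =>
    ⟨⟨|r|, fun _ _ => le_rfl⟩, fun _ _ _ _ => rfl⟩
  refine ⟨L, fun g => m (f g), w, hL, fun g h hg hh => ?_, hw, hwm, hns, fun g hg => ?_, ?_⟩
  · have hsh : BddInv (Cen x) ⊥ (fun c => f g (c * h⁻¹)) := by
      obtain ⟨⟨K, hK⟩, _⟩ := hfb g hg
      exact ⟨⟨K, fun c hc => hK _ ((Cen x).mul_mem hc ((Cen x).inv_mem (hmem.2 hh)))⟩,
        hbot fun c => f g (c * h⁻¹)⟩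
    have h1 : m (fun c => f g (c * h⁻¹) + f h c) = m (fun c => f g (c * h⁻¹)) + m (f h) :=
      m1 _ _ hsh (hfb h hh)
    have h2 : m (fun c => f g (c * h⁻¹)) = m (f g) :=
      m4 (f g) (hfb g hg) h⁻¹ ((Cen x).inv_mem (hmem.2 hh))
    have h3 : f (g * h) = fun c => f g (c * h⁻¹) + f h c := by
      funext c
      simp only [hf, mul_inv_rev, inv_inv]
      rw [← mul_assoc]
      ring
    change m (f (g * h)) = m (f g) + m (f h)
    rw [h3, h1, h2]
  · refine le_trans ?_ (hle g hg)
    have h1 : BddInv (Cen x) ⊥ (fun c => N g - f g c) := by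
      refine ⟨⟨|N g| + |N g⁻¹|, fun c hc => ?_⟩, hbot fun c => N g - f g c⟩
      have h1 := hfle g c hg (hmem.1 hc)
      have h2 := hfge g c hg (hmem.1 hc)
      have h3 := le_abs_self (N g)
      have h4 := le_abs_self (N g⁻¹)
      have h5 := abs_nonneg (N g)
      have h6 := abs_nonneg (N g⁻¹)
      rw [abs_le]
      constructor <;> linarith
    have h2 := m2 _ h1 fun c hc => by
      have := hfle g c hg (hmem.1 hc)
      show 0 ≤ N g - f g c
      linarith
    have h3 := m1 (f g) (fun c => N g - f g c) (hfb g hg) h1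
    have h4 : (fun c => f g c + (N g - f g c)) = fun _ => N g := by
      funext c; ring
    rw [h4, m3] at h3
    change m (f g) ≤ N g
    linarith
  · have h1 : m (f x) = 1 := by
      refine (coMean_congr m1 m2 m3 (hfb x (Commute.refl x)) (hcb 1) fun c hc => ?_).trans (m3 1)
      have h2 : Commute c⁻¹ x := (hmem.1 hc).inv_left
      simp only [hf]
      rw [← h2.eq, hFx _ h2]
      ring
    change m (f x) ≠ 0
    rw [h1]
    exact one_ne_zero

end Vale.Agent.P184.H940
end
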