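import Vale.Agent.P184.Bdl.B1

/-!
# Vanishing of traces from almost cocycles

An approximate version of `CrossedData.deformation`: the multipliers are only almost
multiplicative, and the deformed operators are almost idempotent.
-/

noncomputable section
open scoped Topology BoundedContinuousFunction

namespace Vale.Agent.P184.H940

open Vale.Agent.P184

section Deform

variable {G : Type*} [Group G] {E : Type*} [NormedRing E] [NormedAlgebra ℂ E] [CompleteSpace E]
  (A : CrossedData G E)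

/-- the change of variables in a convolution -/
def cv (G : Type*) [Group G] : G × G ≃ G × G where
  toFun := fun z => (z.2, z.2⁻¹ * z.1)
  invFun := fun z => (z.1 * z.2, z.1)
  left_inv := fun z => by simp only [mul_inv_cancel_left, Prod.mk.eta]
  right_inv := fun z => by simp only [inv_mul_cancel_left, Prod.mk.eta]

theorem pair_sum (w : G → E) (hwn : ∀ g b, ‖w g * b‖ ≤ ‖b‖) (a : G → E)
    (has : Summable fun g => ‖a g‖) (haa : ∀ k, ∑' h, a h * a (h⁻¹ * k) = a k) :
    (Summable fun z : G × G => A.phi (z.1 * z.2) (w (z.1 * z.2) * (a z.1 * a z.2))) ∧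
    ∑' z : G × G, A.phi (z.1 * z.2) (w (z.1 * z.2) * (a z.1 * a z.2)) =
      ∑' k, A.phi k (w k * a k) := by
  have h2 : Summable fun z : G × G => ‖a z.1‖ * ‖a z.2‖ :=
    has.mul_of_nonneg has (fun _ => norm_nonneg _) (fun _ => norm_nonneg _)
  have h1 : Summable fun z : G × G => A.phi (z.1 * z.2) (w (z.1 * z.2) * (a z.1 * a z.2)) := by
    refine Summable.of_norm_bounded h2 fun z => ?_
    exact (A.phi_norm _ _).trans ((hwn _ _).trans (norm_mul_le _ _))
  refine ⟨h1, ?_⟩
  have h5 := (cv G).tsum_eq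
    fun z : G × G => A.phi (z.1 * z.2) (w (z.1 * z.2) * (a z.1 * a z.2))
  have h6 : Summable fun y : G × G => A.phi ((cv G y).1 * (cv G y).2)
      (w ((cv G y).1 * (cv G y).2) * (a (cv G y).1 * a (cv G y).2)) := (cv G).summable_iff.2 h1
  rw [← h5, h6.tsum_prod]
  refine tsum_congr fun k => ?_
  have h3 : ∀ h : G, A.phi ((cv G (k, h)).1 * (cv G (k, h)).2)
      (w ((cv G (k, h)).1 * (cv G (k, h)).2) * (a (cv G (k, h)).1 * a (cv G (k, h)).2)) =
      A.phiL k (w k * (a h * a (h⁻¹ * k))) := by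
    intro h
    show A.phi (h * (h⁻¹ * k)) (w (h * (h⁻¹ * k)) * (a h * a (h⁻¹ * k))) = _
    rw [mul_inv_cancel_left, A.phiL_apply]
  have hsa : Summable fun h => a h * a (h⁻¹ * k) := by
    refine Summable.of_norm_bounded (has.mul_right (∑' g, ‖a g‖)) fun h => ?_
    refine (norm_mul_le _ _).trans (mul_le_mul_of_nonneg_left ?_ (norm_nonneg _))
    exact has.le_tsum _ fun _ _ => norm_nonneg _
  rw [tsum_congr h3, ← (A.phiL k).map_tsum (hsa.mul_left _), hsa.tsum_mul_left, haa,
    A.phiL_apply]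

/-- The deformed operator is almost idempotent. -/
theorem almost_idem (w : G → E) (hwn : ∀ g b, ‖w g * b‖ ≤ ‖b‖)
    (hwz : ∀ g h b, A.act g (w h) * b = b * A.act g (w h)) (a : G → E)
    (hai : ∀ g h, A.act g (a h) = a h) (has : Summable fun g => ‖a g‖)
    (haa : ∀ k, ∑' h, a h * a (h⁻¹ * k) = a k) (δ : G × G → ℝ) (hδ0 : ∀ z, 0 ≤ δ z)
    (hδ : ∀ g h b, ‖(w g * A.act g (w h) - w (g * h)) * b‖ ≤ δ (g, h) * ‖b‖)
    (hδs : Summable fun z : G × G => δ z * (‖a z.1‖ * ‖a z.2‖)) :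
    ‖(∑' g, A.phi g (w g * a g)) * (∑' g, A.phi g (w g * a g)) - ∑' g, A.phi g (w g * a g)‖ ≤
      ∑' z : G × G, δ z * (‖a z.1‖ * ‖a z.2‖) := by
  have hb : ∀ g, ‖A.phi g (w g * a g)‖ ≤ ‖a g‖ := fun g => (A.phi_norm g _).trans (hwn g _)
  have hsn : Summable fun g => ‖A.phi g (w g * a g)‖ :=
    Summable.of_nonneg_of_le (fun _ => norm_nonneg _) hb has
  obtain ⟨h1, h2⟩ := pair_sum A w hwn a has haa
  have h3 := tsum_mul_tsum_of_summable_norm hsn hsn
  have h4 := summable_mul_of_summable_norm hsn hsn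
  rw [h3, ← h2, ← h4.tsum_sub h1]
  refine tsum_of_norm_bounded hδs.hasSum fun z => ?_
  have h5 : A.phi z.1 (w z.1 * a z.1) * A.phi z.2 (w z.2 * a z.2) -
      A.phi (z.1 * z.2) (w (z.1 * z.2) * (a z.1 * a z.2)) =
      A.phiL (z.1 * z.2) ((w z.1 * A.act z.1 (w z.2) - w (z.1 * z.2)) * (a z.1 * a z.2)) := by
    rw [A.phi_mul, A.act_mul, hai, ← A.phiL_apply, ← A.phiL_apply, ← map_sub]
    congr 1
    rw [sub_mul]
    congr 1
    rw [mul_assoc, ← mul_assoc (a z.1), ← hwz z.1 z.2 (a z.1)]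
    simp only [mul_assoc]
  rw [h5, A.phiL_apply]
  refine (A.phi_norm _ _).trans ((hδ _ _ _).trans ?_)
  exact mul_le_mul_of_nonneg_left (norm_mul_le _ _) (hδ0 _)

/-- a projection of the line onto the unit interval -/
def cl (t : ℝ) : ℝ := max 0 (min 1 t)

theorem cl_cont : Continuous cl := continuous_const.max (continuous_const.min continuous_id)

theorem cl_zero : cl 0 = 0 := by simp [cl]

theorem cl_one : cl 1 = 1 := by simp [cl]

theorem cl_abs (t : ℝ) : |cl t| ≤ 1 := by
  rw [abs_le]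
  constructor
  · have := le_max_left (0 : ℝ) (min 1 t)
    unfold cl; linarith
  · exact max_le zero_le_one (min_le_left _ _)

instance [Nontrivial E] : Nontrivial (L1 G E) := by
  refine ⟨⟨CrossedData.del, 0, fun h => ?_⟩⟩
  have h1 := CrossedData.del_one (G := G) (E := E)
  rw [h] at h1
  exact one_ne_zero h1.symm

/-- The traces of the two ends of a path of almost idempotents are close. -/
theorem approx_deformation [Nontrivial E] (w : ℝ → G → E) (hwc : ∀ g, Continuous fun t => w t g)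
    (hwn : ∀ t g b, ‖w t g * b‖ ≤ ‖b‖)
    (hwz : ∀ t g h b, A.act g (w t h) * b = b * A.act g (w t h))
    (hw0 : ∀ g h, w 0 (g * h) = w 0 g * A.act g (w 0 h)) (a : G → E)
    (hai : ∀ g h, A.act g (a h) = a h) (has : Summable fun g => ‖a g‖)
    (haa : ∀ k, ∑' h, a h * a (h⁻¹ * k) = a k) (δ : G × G → ℝ) (hδ0 : ∀ z, 0 ≤ δ z)
    (hδ : ∀ t g h b, ‖(w t g * A.act g (w t h) - w t (g * h)) * b‖ ≤ δ (g, h) * ‖b‖)
    (hδs : Summable fun z : G × G => δ z * (‖a z.1‖ * ‖a z.2‖)) (κ : ℝ) (hκ : κ ≤ 1 / 16)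
    (hη : 3 * (2 * (∑' g, ‖a g‖) + 1) * (∑' z : G × G, δ z * (‖a z.1‖ * ‖a z.2‖)) ≤ κ) :
    ‖∑' g, A.fn g (w 1 g * a g) - ∑' g, A.fn g (w 0 g * a g)‖ ≤ ‖A.tr‖ * κ := by
  set N := ∑' g, ‖a g‖ with hN
  set η := ∑' z : G × G, δ z * (‖a z.1‖ * ‖a z.2‖) with hηd
  have hN0 : 0 ≤ N := tsum_nonneg fun _ => norm_nonneg _
  have hη0 : 0 ≤ η := tsum_nonneg fun z => mul_nonneg (hδ0 z) (by positivity)
  set p : ℝ → (L1 G E →L[ℂ] L1 G E) := fun t => ∑' g, A.phi g (w t g * a g) with hpdef
  have hb : ∀ t g, ‖A.phi g (w t g * a g)‖ ≤ ‖a g‖ := fun t g =>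
    (A.phi_norm g _).trans (hwn t g _)
  have hsn : ∀ t, Summable fun g => ‖A.phi g (w t g * a g)‖ := fun t =>
    Summable.of_nonneg_of_le (fun _ => norm_nonneg _) (hb t) has
  have hsum : ∀ t, Summable fun g => A.phi g (w t g * a g) := fun t => (hsn t).of_norm
  have hcont : Continuous p := by
    refine continuous_tsum (fun g => ?_) has (fun g t => hb t g)
    exact (A.phiL g).continuous.comp ((hwc g).mul continuous_const)
  have hmem : ∀ t, p t ∈ A.clos := by
    intro t
    refine A.clos_closed.mem_of_tendsto (hsum t).hasSum (Filter.Eventually.of_forall fun F => ?_)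
    exact A.clos.sum_mem fun g _ => A.phi_mem_clos _ _
  have htr : ∀ t, A.tr (p t) = ∑' g, A.fn g (w t g * a g) := by
    intro t
    rw [hpdef]
    simp only
    rw [A.tr.map_tsum (hsum t)]
    exact tsum_congr fun g => A.tr_phi g _
  have hpn : ∀ t, ‖p t‖ ≤ N := fun t => tsum_of_norm_bounded has.hasSum (hb t)
  have hai' : ∀ t, ‖p t * p t - p t‖ ≤ η := fun t =>
    almost_idem A (w t) (hwn t) (hwz t) a hai has haa δ hδ0 (hδ t) hδs
  have hη16 : η ≤ 1 / 16 := by nlinarith
  have hex : ∀ t, ∃ f ∈ (A.clos : Set (L1 G E →L[ℂ] L1 G E)), f * f = f ∧ ‖f - p t‖ ≤ κ := by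
    intro t
    obtain ⟨f, hf, hff, hfp⟩ := exists_idempotent_near A.clos_closed
      (fun a ha b hb => A.mul_mem_clos ha hb) (fun a ha b hb => A.clos.add_mem ha hb)
      (fun a ha => A.clos.neg_mem ha) (p t) (hmem t) ((hai' t).trans hη16)
    refine ⟨f, hf, hff, hfp.trans (le_trans ?_ hη)⟩
    refine mul_le_mul ?_ (hai' t) (norm_nonneg _) (by positivity)
    have := hpn t
    linarith
  choose f hfS hff hfp using hex
  have hκ0 : 0 ≤ κ := (norm_nonneg _).trans (hfp 0)
  -- the trace of the idempotents is locally constant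
  have hloc : IsLocallyConstant fun t => A.tr (f t) := by
    rw [IsLocallyConstant.iff_eventually_eq]
    intro t
    have h1 : ∀ᶠ y in nhds t, dist (p y) (p t) < 1 / 2 :=
      (hcont.tendsto t).eventually (Metric.ball_mem_nhds (p t) (by norm_num))
    filter_upwards [h1] with y hy
    rw [dist_eq_norm] at hy
    refine trace_eq_of_close (T := A.tr) (S := A.clos) A.one_mem_clos A.mul_mem_clos A.tr_comm
      (hff y) (hff t) (hfS y) (hfS t) ?_
    have h2 : f y - f t = (f y - p y) + (p y - p t) - (f t - p t) := by abel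
    rw [h2]
    have h3 := norm_sub_le ((f y - p y) + (p y - p t)) (f t - p t)
    have h4 := norm_add_le (f y - p y) (p y - p t)
    have h5 := hfp y
    have h6 := hfp t
    linarith
  have h01 : A.tr (f 1) = A.tr (f 0) := hloc.apply_eq_of_preconnectedSpace 1 0
  have hid0 : p 0 * p 0 = p 0 := by
    have h1 := almost_idem A (w 0) (hwn 0) (hwz 0) a hai has haa (fun _ => 0) (fun _ => le_rfl)
      (fun g h b => by rw [hw0, sub_self, zero_mul, norm_zero, zero_mul])
      (by simp)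
    simp only [zero_mul, tsum_zero] at h1
    exact sub_eq_zero.1 (norm_le_zero_iff.1 h1)
  have h00 : A.tr (f 0) = A.tr (p 0) :=
    trace_eq_of_close (T := A.tr) (S := A.clos) A.one_mem_clos A.mul_mem_clos A.tr_comm
      (hff 0) hid0 (hfS 0) (hmem 0) (by have := hfp 0; linarith)
  rw [← htr, ← htr, ← h00, ← h01, ← map_sub]
  refine (A.tr.le_opNorm _).trans (mul_le_mul_of_nonneg_left ?_ (norm_nonneg _))
  rw [norm_sub_rev]
  exact hfp 1

end Deform

end Vale.Agent.P184.H940
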