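import Vale.Agent.P184.R2.H940.Perm

/-!
# Almost cocycles for a subgroup of finite index induce almost cocycles
-/

noncomputable section

namespace Vale.Agent.P184.H940

section

variable {G : Type*} [Group G] (H : Subgroup G)

/-- representative of a coset -/
def rp (i : G ⧸ H) : G := Quotient.out i

theorem rp_spec (i : G ⧸ H) : (QuotientGroup.mk (rp H i) : G ⧸ H) = i := Quotient.out_eq' i

theorem tau_mem (g : G) (i : G ⧸ H) : (rp H (g • i))⁻¹ * (g * rp H i) ∈ H := by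
  rw [← QuotientGroup.eq, rp_spec]
  change g • i = g • (QuotientGroup.mk (rp H i) : G ⧸ H)
  rw [rp_spec]

/-- the cocycle -/
def ta (g : G) (i : G ⧸ H) : H := ⟨_, tau_mem H g i⟩

theorem ta_mul (g h : G) (i : G ⧸ H) : ta H (g * h) i = ta H g (h • i) * ta H h i := by
  apply Subtype.ext
  change (rp H ((g * h) • i))⁻¹ * (g * h * rp H i) =
    (rp H (g • h • i))⁻¹ * (g * rp H (h • i)) * ((rp H (h • i))⁻¹ * (h * rp H i))
  rw [mul_smul]
  group

open Classical in
/-- the conjugate by the representative -/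
def nu (i : G ⧸ H) (z : G) : H :=
  if h : (rp H i)⁻¹ * z * rp H i ∈ H then ⟨_, h⟩ else 1

theorem nu_coe {i : G ⧸ H} {z : G} (h : (rp H i)⁻¹ * z * rp H i ∈ H) :
    (nu H i z : G) = (rp H i)⁻¹ * z * rp H i := by
  unfold nu
  rw [dif_pos h]

/-- the conjugate by the representative is in the subgroup, and conjugate to `x` there -/
def InCl (x : H) (i : G ⧸ H) (z : G) : Prop :=
  (rp H i)⁻¹ * z * rp H i ∈ H ∧ IsConj x (nu H i z)

theorem smul_rep (g z : G) (i : G ⧸ H) :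
    (rp H (g • i))⁻¹ * (g * z * g⁻¹) * rp H (g • i) =
      (ta H g i : G) * ((rp H i)⁻¹ * z * rp H i) * (ta H g i : G)⁻¹ := by
  change _ = (rp H (g • i))⁻¹ * (g * rp H i) * ((rp H i)⁻¹ * z * rp H i) *
    ((rp H (g • i))⁻¹ * (g * rp H i))⁻¹
  group

theorem nu_smul {g z : G} {i : G ⧸ H} (h : (rp H i)⁻¹ * z * rp H i ∈ H) :
    (rp H (g • i))⁻¹ * (g * z * g⁻¹) * rp H (g • i) ∈ H ∧
    nu H (g • i) (g * z * g⁻¹) = ta H g i * nu H i z * (ta H g i)⁻¹ := by
  have h1 : (rp H (g • i))⁻¹ * (g * z * g⁻¹) * rp H (g • i) ∈ H := by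
    rw [smul_rep]
    exact H.mul_mem (H.mul_mem (ta H g i).2 h) (H.inv_mem (ta H g i).2)
  refine ⟨h1, Subtype.ext ?_⟩
  rw [nu_coe H h1, smul_rep, Subgroup.coe_mul, Subgroup.coe_mul, nu_coe H h]
  rfl

theorem inCl_smul_of {x : H} {g z : G} {i : G ⧸ H} (h : InCl H x i z) :
    InCl H x (g • i) (g * z * g⁻¹) := by
  obtain ⟨h1, h2⟩ := nu_smul H (g := g) h.1
  refine ⟨h1, ?_⟩
  rw [h2]
  exact h.2.trans (isConj_iff.2 ⟨_, rfl⟩)

theorem inCl_smul {x : H} (g z : G) (i : G ⧸ H) :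
    InCl H x (g • i) (g * z * g⁻¹) ↔ InCl H x i z := by
  refine ⟨fun h => ?_, inCl_smul_of H⟩
  have h1 := inCl_smul_of H (g := g⁻¹) h
  have h2 : g⁻¹ * (g * z * g⁻¹) * g⁻¹⁻¹ = z := by group
  rwa [inv_smul_smul, h2] at h1

theorem inCl_loop {x : H} {z : G} {i : G ⧸ H} (h : InCl H x i z) :
    z • i = i ∧ ta H z i = nu H i z := by
  have h1 : z • i = i := by
    have h2 : (QuotientGroup.mk (z * rp H i) : G ⧸ H) = QuotientGroup.mk (rp H i) := by
      rw [eq_comm, QuotientGroup.eq, ← mul_assoc]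
      exact h.1
    have h3 : (QuotientGroup.mk (z * rp H i) : G ⧸ H) = z • (QuotientGroup.mk (rp H i) : G ⧸ H) :=
      rfl
    rw [h3, rp_spec] at h2
    exact h2
  refine ⟨h1, Subtype.ext ?_⟩
  rw [nu_coe H h.1]
  change (rp H (z • i))⁻¹ * (z * rp H i) = _
  rw [h1, mul_assoc]

end

/-- Subgroups of finite index. -/
theorem AlmostCoc.of_index {G : Type*} [Group G] {H : Subgroup G} [H.FiniteIndex] {x : H}
    (hx : AlmostCoc x) : AlmostCoc (x : G) := by
  classical
  have : Fintype (G ⧸ H) := Fintype.ofFinite _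
  intro S Y ε hε
  set n : ℕ := Fintype.card (G ⧸ H) with hn
  have hε' : 0 < ε / (n + 1) := by positivity
  obtain ⟨c, h1, h2, h3⟩ := hx
    (S.biUnion fun g => Finset.univ.image fun i => ta H g i)
    (Y.biUnion fun z => Finset.univ.image fun i => nu H i z) (ε / (n + 1)) hε'
  choose M hM using h1
  -- the number of points over an element of the class
  set m : ℕ := (Finset.univ.filter fun i : G ⧸ H => InCl H x i x).card with hm
  have hm0 : 1 ≤ m := by
    rw [hm, Nat.one_le_iff_ne_zero, Finset.card_ne_zero]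
    refine ⟨(QuotientGroup.mk 1 : G ⧸ H), Finset.mem_filter.2 ⟨Finset.mem_univ _, ?_⟩⟩
    have h4 : rp H (QuotientGroup.mk 1 : G ⧸ H) ∈ H := by
      have h5 := rp_spec H (QuotientGroup.mk 1 : G ⧸ H)
      rw [eq_comm, QuotientGroup.eq, inv_one, one_mul] at h5
      exact h5
    have h5 : (rp H (QuotientGroup.mk 1 : G ⧸ H))⁻¹ * (x : G) * rp H (QuotientGroup.mk 1 : G ⧸ H)
        ∈ H := H.mul_mem (H.mul_mem (H.inv_mem h4) x.2) h4
    refine ⟨h5, isConj_iff.2 ⟨(⟨_, h4⟩ : H)⁻¹, Subtype.ext ?_⟩⟩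
    rw [nu_coe H h5, inv_inv]
    rfl
  have hm0' : (1 : ℝ) ≤ m := by exact_mod_cast hm0
  have hmz : ∀ z, IsConj (x : G) z →
      (∑ i : G ⧸ H, if InCl H x i z then (1 : ℝ) else 0) = m := by
    intro z hz
    obtain ⟨g, rfl⟩ := isConj_iff.1 hz
    rw [← Equiv.sum_comp (MulAction.toPerm g : Equiv.Perm (G ⧸ H))]
    simp only [MulAction.toPerm_apply, inCl_smul]
    rw [Finset.sum_ite, Finset.sum_const_zero, add_zero, Finset.sum_const, nsmul_eq_mul, mul_one]
  have hm1 : (m : ℝ)⁻¹ ≤ 1 := inv_le_one_of_one_le₀ hm0'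
  have hmi : 0 ≤ (m : ℝ)⁻¹ := by positivity
  have habs : ∀ a : ℝ, |(m : ℝ)⁻¹ * a| ≤ |a| := fun a => by
    rw [abs_mul, abs_of_nonneg hmi]
    have := mul_le_mul_of_nonneg_right hm1 (abs_nonneg a)
    rwa [one_mul] at this
  have hnε : (n : ℝ) * (ε / (n + 1)) ≤ ε := by
    have h4 : ((n : ℝ) + 1) * (ε / (n + 1)) = ε := by field_simp
    linarith
  have hsumle : ∀ f : G ⧸ H → ℝ, (∀ i, |f i| ≤ ε / (n + 1)) → |∑ i, f i| ≤ ε := by
    intro f hf
    refine (Finset.abs_sum_le_sum_abs _ _).trans ?_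
    refine (Finset.sum_le_sum fun i _ => hf i).trans ?_
    rw [Finset.sum_const, Finset.card_univ, nsmul_eq_mul]
    exact hnε
  refine ⟨fun g z => (m : ℝ)⁻¹ * ∑ i : G ⧸ H, if InCl H x i z then c (ta H g i) (nu H i z)
    else 0, ?_, ?_, ?_⟩
  · intro g
    refine ⟨∑ i : G ⧸ H, |M (ta H g i)|, fun z _ => ?_⟩
    refine (habs _).trans ((Finset.abs_sum_le_sum_abs _ _).trans (Finset.sum_le_sum fun i _ => ?_))
    split
    · next h => exact (hM _ _ h.2).trans (le_abs_self _)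
    · rw [abs_zero]; exact abs_nonneg _
  · intro g hg h hh z _
    have e1 : (∑ i : G ⧸ H, if InCl H x i (h * z * h⁻¹) then c (ta H g i) (nu H i (h * z * h⁻¹))
        else 0) = ∑ i : G ⧸ H, if InCl H x i z then
          c (ta H g (h • i)) (ta H h i * nu H i z * (ta H h i)⁻¹) else 0 := by
      rw [← Equiv.sum_comp (MulAction.toPerm h : Equiv.Perm (G ⧸ H))]
      refine Finset.sum_congr rfl fun i _ => ?_
      simp only [MulAction.toPerm_apply, inCl_smul]
      split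
      · next h4 => rw [(nu_smul H h4.1).2]
      · rfl
    simp only
    rw [e1, ← mul_sub, ← mul_sub, ← Finset.sum_sub_distrib, ← Finset.sum_sub_distrib]
    refine (habs _).trans (hsumle _ fun i => ?_)
    split
    · next h4 =>
      rw [ta_mul]
      refine h2 _ ?_ _ ?_ _ h4.2
      · exact Finset.mem_biUnion.2 ⟨g, hg, Finset.mem_image.2 ⟨_, Finset.mem_univ _, rfl⟩⟩
      · exact Finset.mem_biUnion.2 ⟨h, hh, Finset.mem_image.2 ⟨_, Finset.mem_univ _, rfl⟩⟩
    · rw [sub_self, sub_self, abs_zero]; exact hε'.le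
  · intro z hzY hz
    have e1 : (m : ℝ)⁻¹ * ∑ i : G ⧸ H, (if InCl H x i z then Real.pi else 0) = Real.pi := by
      have h4 : ∀ i : G ⧸ H, (if InCl H x i z then Real.pi else 0) =
          (if InCl H x i z then (1 : ℝ) else 0) * Real.pi := fun i => by split <;> simp
      rw [Finset.sum_congr rfl fun i _ => h4 i, ← Finset.sum_mul, hmz z hz]
      field_simp
    have e2 : (m : ℝ)⁻¹ * (∑ i : G ⧸ H, if InCl H x i z then c (ta H z i) (nu H i z) else 0) -
        Real.pi = (m : ℝ)⁻¹ * ∑ i : G ⧸ H, ((if InCl H x i z then c (ta H z i) (nu H i z) else 0) -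
          (if InCl H x i z then Real.pi else 0)) := by
      rw [Finset.sum_sub_distrib, mul_sub, e1]
    simp only
    rw [e2]
    refine (habs _).trans (hsumle _ fun i => ?_)
    split
    · next h4 =>
      rw [(inCl_loop H h4).2]
      exact h3 _ (Finset.mem_biUnion.2 ⟨z, hzY, Finset.mem_image.2 ⟨_, Finset.mem_univ _, rfl⟩⟩)
        h4.2
    · rw [sub_self, abs_zero]; exact hε'.le

end Vale.Agent.P184.H940
end
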