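import Vale.Agent.P184.R2.H940.Cut
import Vale.Agent.P184.R2.H940.Index

/-!
# Characters of the centralizer with slowly growing bounds
-/

noncomputable section

namespace Vale.Agent.P184.H940

/-- The main theorem. -/
theorem WCharged.almostCoc {G : Type*} [Group G] {x : G} (h : WCharged x) : AlmostCoc x := by
  obtain ⟨L, ψ, w, hL, hψ, hw, hwm, hns, hle, hx⟩ := h
  have hceil : ∀ a b : ℝ, ⌈a + b⌉₊ ≤ ⌈a⌉₊ + ⌈b⌉₊ := fun a b => Nat.ceil_add_le a b
  let P : PotData x :=
    { l := fun g => max ⌈L g⌉₊ ⌈L g⁻¹⌉₊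
      φ := ψ
      w := w
      l_mul := fun g h => by
        have h1 : ⌈L (g * h)⌉₊ ≤ ⌈L g⌉₊ + ⌈L h⌉₊ := (Nat.ceil_mono (hL g h)).trans (hceil _ _)
        have h2 : ⌈L (g * h)⁻¹⌉₊ ≤ ⌈L h⁻¹⌉₊ + ⌈L g⁻¹⌉₊ := by
          rw [mul_inv_rev]
          exact (Nat.ceil_mono (hL _ _)).trans (hceil _ _)
        have h3 := le_max_left ⌈L g⌉₊ ⌈L g⁻¹⌉₊
        have h4 := le_max_right ⌈L g⌉₊ ⌈L g⁻¹⌉₊
        have h5 := le_max_left ⌈L h⌉₊ ⌈L h⁻¹⌉₊
        have h6 := le_max_right ⌈L h⌉₊ ⌈L h⁻¹⌉₊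
        exact max_le (by omega) (by omega)
      l_inv := fun g => by rw [inv_inv, max_comm]
      φ_mul := hψ
      φ_le := fun g hg => (hle g hg).trans (W_mono hw (le_max_left _ _))
      w_pos := hw
      w_mono := hwm }
  exact P.almostCoc hns hx

/-- Quadratic bounds. -/
theorem wCharged_of_quad {G : Type*} [Group G] {x : G} {L ψ : G → ℝ} {C : ℝ}
    (hL0 : ∀ g, 0 ≤ L g) (hL : ∀ g h, L (g * h) ≤ L g + L h)
    (hψ : ∀ g h, Commute g x → Commute h x → ψ (g * h) = ψ g + ψ h)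
    (hle : ∀ g, Commute g x → ψ g ≤ C * L g ^ 2) (hx : ψ x ≠ 0) : WCharged x := by
  set K : ℝ := max C 1 with hK
  have hK0 : 0 < K := lt_of_lt_of_le one_pos (le_max_right _ _)
  refine ⟨L, ψ, fun n => K * (2 * n + 1), hL, hψ, fun n => by positivity, ?_, ?_, ?_, hx⟩
  · intro a b hab
    have : (a : ℝ) ≤ b := by exact_mod_cast hab
    exact mul_le_mul_of_nonneg_left (by linarith) hK0.le
  · intro hs
    have h1 : Summable fun n : ℕ => 1 / ((n : ℝ) + 1) := by
      refine Summable.of_nonneg_of_le (fun n => by positivity) (fun n => ?_) (hs.mul_left (2 * K))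
      have h2 : (0 : ℝ) < (n : ℝ) + 1 := by positivity
      have h3 : (0 : ℝ) < K * (2 * n + 1) := by positivity
      rw [mul_one_div, div_le_div_iff₀ h2 h3]
      nlinarith [hK0, (Nat.cast_nonneg n : (0 : ℝ) ≤ n)]
    have h2 := (summable_nat_add_iff (f := fun n : ℕ => 1 / (n : ℝ)) 1).1 (by
      refine h1.congr fun n => ?_
      push_cast
      rfl)
    exact Real.not_summable_one_div_natCast h2
  · intro g hg
    have h1 : ∀ m : ℕ, ∑ n ∈ Finset.range m, K * (2 * (n : ℝ) + 1) = K * (m : ℝ) ^ 2 := by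
      intro m
      induction m with
      | zero => simp
      | succ m ih =>
        rw [Finset.sum_range_succ, ih]
        push_cast
        ring
    rw [h1]
    have h2 : L g ≤ ⌈L g⌉₊ := Nat.le_ceil _
    have h3 : L g ^ 2 ≤ (⌈L g⌉₊ : ℝ) ^ 2 := pow_le_pow_left₀ (hL0 g) h2 2
    calc ψ g ≤ C * L g ^ 2 := hle g hg
      _ ≤ K * L g ^ 2 := mul_le_mul_of_nonneg_right (le_max_left _ _) (sq_nonneg _)
      _ ≤ K * (⌈L g⌉₊ : ℝ) ^ 2 := mul_le_mul_of_nonneg_left h3 hK0.le

/-- The centralizer of `x` is virtually generated by `x`, and the powers of `x` are not too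
distorted. -/
theorem wCharged_of_cyc {G : Type*} [Group G] {x : G}
    (hfin : (Subgroup.zpowers (⟨x, Subgroup.mem_centralizer_singleton_iff.2 rfl⟩ :
      Subgroup.centralizer ({x} : Set G))).FiniteIndex)
    {L : G → ℝ} {w : ℕ → ℝ} (hL : ∀ g h, L (g * h) ≤ L g + L h) (hw : ∀ n, 0 < w n)
    (hwm : Monotone w) (hns : ¬ Summable fun n => 1 / w n)
    (hle : ∀ n : ℤ, (n : ℝ) ≤ ∑ j ∈ Finset.range ⌈L (x ^ n)⌉₊, w j) : WCharged x := by
  classical
  set C := Subgroup.centralizer ({x} : Set G) with hC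
  set X : C := ⟨x, Subgroup.mem_centralizer_singleton_iff.2 rfl⟩ with hX
  have hXc : ∀ c : C, c * X = X * c := fun c =>
    Subtype.ext (Subgroup.mem_centralizer_singleton_iff.1 c.2)
  have hXZ : Subgroup.zpowers X ≤ Subgroup.center C := by
    rw [Subgroup.zpowers_le, Subgroup.mem_center_iff]
    exact hXc
  have hZfin : (Subgroup.center C).FiniteIndex := Subgroup.finiteIndex_of_le hXZ
  have hnorm : (Subgroup.zpowers X).Normal := by
    refine ⟨fun a ha c => ?_⟩
    have h1 : c * a * c⁻¹ = a := by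
      rw [Subgroup.mem_center_iff.1 (hXZ ha) c, mul_inv_cancel_right]
    rw [h1]
    exact ha
  set k := (Subgroup.center C).index with hk
  set j := (Subgroup.zpowers X).index with hj
  have hk0 : 0 < k := Nat.pos_of_ne_zero hZfin.index_ne_zero
  have hj0 : 0 < j := Nat.pos_of_ne_zero hfin.index_ne_zero
  set m := k * j with hm
  have hm0 : 0 < m := Nat.mul_pos hk0 hj0
  -- `x` has infinite order
  have hinf : ∀ n : ℤ, x ^ n = 1 → n = 0 := by
    intro n hn
    by_contra hn0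
    set B := ∑ j ∈ Finset.range ⌈L 1⌉₊, w j with hB
    obtain ⟨N, hN⟩ := exists_nat_gt B
    have h1 : x ^ (n * (N * n)) = 1 := by rw [zpow_mul, hn, one_zpow]
    have h2 := hle (n * (N * n))
    rw [h1, ← hB] at h2
    have h3 : (1 : ℤ) ≤ n * n := by
      rcases lt_or_gt_of_ne hn0 with h | h <;> nlinarith
    have h4 : (N : ℤ) ≤ n * (N * n) := by nlinarith
    have h5 : (N : ℝ) ≤ ((n * (N * n) : ℤ) : ℝ) := by exact_mod_cast h4
    linarith
  have hinj : ∀ a b : ℤ, x ^ a = x ^ b → a = b := by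
    intro a b hab
    have h1 : x ^ (a - b) = 1 := by rw [zpow_sub, hab, mul_inv_cancel]
    have := hinf _ h1
    omega
  -- powers are homomorphisms
  have hpm : ∀ c d : C, (c * d) ^ m = c ^ m * d ^ m := by
    intro c d
    have h1 : (c * d) ^ k = c ^ k * d ^ k := by
      have h2 := map_mul (MonoidHom.transferCenterPow C) c d
      have h3 := congrArg (Subtype.val : Subgroup.center C → C) h2
      rwa [Subgroup.coe_mul, MonoidHom.transferCenterPow_apply, MonoidHom.transferCenterPow_apply,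
        MonoidHom.transferCenterPow_apply] at h3
    have h4 : c ^ k ∈ Subgroup.center C := by
      rw [hk]; exact Subgroup.pow_index_mem _ c
    have h5 : Commute (c ^ k) (d ^ k) := (Subgroup.mem_center_iff.1 h4 (d ^ k)).symm
    rw [hm, pow_mul, h1, h5.mul_pow, ← pow_mul, ← pow_mul]
  have hpz : ∀ c : C, ∃ n : ℤ, X ^ n = c ^ m := by
    intro c
    have h1 : (c ^ k) ^ j ∈ Subgroup.zpowers X := Subgroup.pow_index_mem _ _
    rw [← pow_mul] at h1
    exact Subgroup.mem_zpowers_iff.1 h1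
  choose f hf using hpz
  have hf' : ∀ c : C, x ^ f c = (c : G) ^ m := fun c => congrArg Subtype.val (hf c)
  set ψ : G → ℝ := fun g => if hg : g ∈ C then (f ⟨g, hg⟩ : ℝ) else 0 with hψ
  have hmem : ∀ {g : G}, Commute g x → g ∈ C := fun h =>
    Subgroup.mem_centralizer_singleton_iff.2 h
  have hψv : ∀ g (hg : g ∈ C), ψ g = f ⟨g, hg⟩ := fun g hg => by
    simp only [hψ, dif_pos hg]
  have hLpow : ∀ (g : G) (n : ℕ), 0 < n → L (g ^ n) ≤ n * L g := by
    intro g n
    induction n with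
    | zero => intro h; exact absurd h (lt_irrefl 0)
    | succ n ih =>
      intro _
      rcases Nat.eq_zero_or_pos n with h | h
      · subst h; simp
      · rw [pow_succ]
        have := hL (g ^ n) g
        have := ih h
        push_cast
        linarith
  refine ⟨fun g => m * L g, ψ, w, fun g h => ?_, fun g h hg hh => ?_, hw, hwm, hns, fun g hg => ?_,
    ?_⟩
  · rw [← mul_add]
    exact mul_le_mul_of_nonneg_left (hL g h) (Nat.cast_nonneg _)
  · have hg' := hmem hg
    have hh' := hmem hh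
    rw [hψv _ (C.mul_mem hg' hh'), hψv g hg', hψv h hh']
    have h1 : x ^ f ⟨g * h, C.mul_mem hg' hh'⟩ = x ^ (f ⟨g, hg'⟩ + f ⟨h, hh'⟩) := by
      rw [zpow_add, hf', hf', hf']
      exact congrArg Subtype.val (hpm ⟨g, hg'⟩ ⟨h, hh'⟩)
    rw [hinj _ _ h1]
    push_cast
    rfl
  · have hg' := hmem hg
    rw [hψv g hg']
    refine (hle _).trans (W_mono hw ?_)
    rw [hf']
    exact Nat.ceil_mono (hLpow g m hm0)
  · have hx' := hmem (Commute.refl x)
    rw [hψv x hx']
    have h1 : x ^ f ⟨x, hx'⟩ = x ^ ((m : ℕ) : ℤ) := by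
      rw [hf', zpow_natCast]
    rw [hinj _ _ h1]
    have : (m : ℝ) ≠ 0 := by exact_mod_cast hm0.ne'
    exact_mod_cast this

end Vale.Agent.P184.H940
end
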