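import Vale.Agent.P184.WDefs

/-!
# Definitions for the statement on almost cocycles
-/

namespace Vale.Agent.P184.H940

/-- There are almost cocycles on the conjugacy class of `x`: real functions `c g y` of `g ∈ G` and
`y` conjugate to `x`, bounded for each `g`, satisfying the cocycle equation up to `ε` for `g`, `h`
in a given finite set, and almost equal to `π` at the loops `(y, y)` with `y` in a given finite
set. -/
def AlmostCoc {G : Type*} [Group G] (x : G) : Prop :=
  ∀ (S Y : Finset G) (ε : ℝ), 0 < ε → ∃ c : G → G → ℝ,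
    (∀ g, ∃ M, ∀ y, IsConj x y → |c g y| ≤ M) ∧
    (∀ g ∈ S, ∀ h ∈ S, ∀ y, IsConj x y → |c (g * h) y - c g (h * y * h⁻¹) - c h y| ≤ ε) ∧
    ∀ y ∈ Y, IsConj x y → |c y y - Real.pi| ≤ ε

/-- The centralizer of `x` has a real character `ψ`, not zero at `x`, with
`ψ c ≤ w 0 + ... + w (l - 1)`, `l` the least natural number with `L c ≤ l`, for a subadditive
function `L` on the whole group and a nondecreasing positive sequence `w` such that the series
of the `1 / w n` diverges. -/
def WCharged {G : Type*} [Group G] (x : G) : Prop :=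
  ∃ (L ψ : G → ℝ) (w : ℕ → ℝ), (∀ g h, L (g * h) ≤ L g + L h) ∧
    (∀ g h, Commute g x → Commute h x → ψ (g * h) = ψ g + ψ h) ∧
    (∀ n, 0 < w n) ∧ Monotone w ∧ (¬ Summable fun n => 1 / w n) ∧
    (∀ g, Commute g x → ψ g ≤ ∑ n ∈ Finset.range ⌈L g⌉₊, w n) ∧ ψ x ≠ 0

/-- The elements of infinite order are mild (in the sense of the starting files) or have almost
cocycles. -/
def SoftInf (G : Type*) [Group G] : Prop :=
  ∀ x : G, ¬ IsOfFinOrder x → W.Mild x ∨ AlmostCoc x

/-- For all `S` and `δ` the elements of finite order of the subgroup generated by `S` satisfy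
`SlowAt`, up to finitely many conjugacy classes (as in the definition of nice groups of the
starting files). -/
def SoftTor (G : Type*) [Group G] : Prop :=
  ∀ (S : Finset G) (δ : ℝ), 0 < δ → ∃ B : Finset G,
    ∀ x ∈ Subgroup.closure (S : Set G), IsOfFinOrder x → W.SlowAt x S δ ∨ ∃ b ∈ B, IsConj b x

end Vale.Agent.P184.H940
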