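import Vale.Agent.P184.R2.H940.Approx
import Vale.Agent.P184.R2.H940.Defs

/-!
# Almost cocycles on a conjugacy class
-/

noncomputable section
open scoped Topology BoundedContinuousFunction

namespace Vale.Agent.P184.H940

open Vale.Agent.P184

section

variable {G : Type*} [Group G] {D : Type*} [NormedRing D] [NormedAlgebra ℂ D]

/-- the norms of products with a multiplier -/
theorem wmul_mul_norm [TopologicalSpace G] [DiscreteTopology G] (d : G → ℝ) (b : G →ᵇ D) :
    ‖wmul D d * b‖ ≤ ‖b‖ := by
  rw [BoundedContinuousFunction.norm_le (norm_nonneg _)]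
  intro y
  rw [BoundedContinuousFunction.mul_apply, wmul_apply, smul_mul_assoc, one_mul, norm_smul,
    mul_comm Complex.I, Complex.norm_exp_ofReal_mul_I, one_mul]
  exact b.norm_coe_le_norm y

/-- Vanishing of the trace at a class with almost cocycles. -/
theorem vanish_of_almost [CompleteSpace D] [Nontrivial D]
    (tr : D →L[ℂ] ℂ) (htr : ∀ a b, tr (a * b) = tr (b * a)) (x : G) (hx : AlmostCoc x)
    (e : G → D) (hs : Summable fun g => ‖e g‖) (he : ∀ k, ∑' h, e h * e (h⁻¹ * k) = e k) :
    ∑' g : {g // IsConj x g}, tr (e g) = 0 := by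
  classical
  let _ : TopologicalSpace G := ⊥
  have _ : DiscreteTopology G := ⟨rfl⟩
  set N := ∑' g, ‖e g‖ with hN
  have hN0 : 0 ≤ N := tsum_nonneg fun _ => norm_nonneg _
  let A := conjData x tr htr
  set T0 := ∑' g : {g // IsConj x g}, tr (e g) with hT0
  set K : ℝ := ‖tr‖ * (N + 2) + ‖A.tr‖ * (3 * (2 * N + 1) * (N * N + 4 * N)) with hK
  have hK0 : 0 ≤ K := by positivity
  -- the main estimate
  have main : ∀ ε : ℝ, 0 < ε → 3 * (2 * N + 1) * (ε * (N * N + 4 * N)) ≤ 1 / 16 →
      ‖2 * T0‖ ≤ ε * K := by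
    intro ε hε hε16
    obtain ⟨S, hS⟩ : ∃ S : Finset G, ∑' g, (if g ∈ S then 0 else ‖e g‖) ≤ ε := by
      obtain ⟨S, hS⟩ : ∃ S : Finset G, N - ε < ∑ g ∈ S, ‖e g‖ := by
        have h1 := hs.hasSum.eventually
          (lt_mem_nhds (show N - ε < ∑' g, ‖e g‖ by linarith only [hε]))
        obtain ⟨S0, hS0⟩ := Filter.eventually_atTop.mp h1
        exact ⟨S0, hS0 S0 le_rfl⟩
      refine ⟨S, ?_⟩
      have h2 : ∀ g, (if g ∈ S then 0 else ‖e g‖) = ‖e g‖ - (if g ∈ S then ‖e g‖ else 0) := by
        intro g; split <;> ring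
      have h3 : Summable fun g => if g ∈ S then ‖e g‖ else 0 :=
        summable_of_ne_finset_zero (s := S) fun g hg => if_neg hg
      rw [tsum_congr h2, hs.tsum_sub h3, tsum_eq_sum (s := S) fun g hg => if_neg hg]
      have h4 : ∑ g ∈ S, (if g ∈ S then ‖e g‖ else 0) = ∑ g ∈ S, ‖e g‖ :=
        Finset.sum_congr rfl fun g hg => if_pos hg
      rw [h4]
      linarith
    obtain ⟨c, hcb, hcm, hcx⟩ := hx S S ε hε
    set χ : G → ℝ := fun g => if g ∈ S then 0 else 1 with hχ
    have hχ0 : ∀ g, 0 ≤ χ g := fun g => by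
      simp only [hχ]; split <;> norm_num
    have hχ1 : ∀ g, χ g ≤ 1 := fun g => by
      simp only [hχ]; split <;> norm_num
    set u : G → ℝ := fun g => ‖e g‖ with hu
    set v : G → ℝ := fun g => χ g * ‖e g‖ with hv
    have hv0 : ∀ g, 0 ≤ v g := fun g => mul_nonneg (hχ0 g) (norm_nonneg _)
    have hvs : Summable v := Summable.of_nonneg_of_le hv0 (fun g => by
      have := mul_le_mul_of_nonneg_right (hχ1 g) (norm_nonneg (e g))
      rwa [one_mul] at this) hs
    have hvt : ∑' g, v g ≤ ε := by
      refine le_trans (le_of_eq (tsum_congr fun g => ?_)) hS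
      simp only [hv, hχ]
      split <;> simp
    have hvt0 : 0 ≤ ∑' g, v g := tsum_nonneg hv0
    set δ : G × G → ℝ := fun z => ε + 2 * χ z.1 + 2 * χ z.2 with hδ
    have hδ0 : ∀ z, 0 ≤ δ z := fun z => by
      have := hχ0 z.1
      have := hχ0 z.2
      simp only [hδ]; positivity
    have hsum : HasSum (fun z : G × G => δ z * (‖e z.1‖ * ‖e z.2‖))
        (ε * (N * N) + 2 * ((∑' g, v g) * N) + 2 * (N * ∑' g, v g)) := by
      have s1 : HasSum (fun z : G × G => u z.1 * u z.2) (N * N) :=
        hs.hasSum.mul hs.hasSum (hs.mul_of_nonneg hs (fun _ => norm_nonneg _)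
          fun _ => norm_nonneg _)
      have s2 : HasSum (fun z : G × G => v z.1 * u z.2) ((∑' g, v g) * N) :=
        hvs.hasSum.mul hs.hasSum (hvs.mul_of_nonneg hs hv0 fun _ => norm_nonneg _)
      have s3 : HasSum (fun z : G × G => u z.1 * v z.2) (N * ∑' g, v g) :=
        hs.hasSum.mul hvs.hasSum (hs.mul_of_nonneg hvs (fun _ => norm_nonneg _) hv0)
      have hf : (fun z : G × G => δ z * (‖e z.1‖ * ‖e z.2‖)) = fun z : G × G =>
          ε * (u z.1 * u z.2) + 2 * (v z.1 * u z.2) + 2 * (u z.1 * v z.2) := by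
        funext z
        simp only [hδ, hu, hv]
        ring
      rw [hf]
      exact ((s1.mul_left ε).add (s2.mul_left 2)).add (s3.mul_left 2)
    have hδs := hsum.summable
    have hηle : ∑' z : G × G, δ z * (‖e z.1‖ * ‖e z.2‖) ≤ ε * (N * N + 4 * N) := by
      rw [hsum.tsum_eq]
      nlinarith
    have hηle' : 3 * (2 * N + 1) * (∑' z : G × G, δ z * (‖e z.1‖ * ‖e z.2‖)) ≤
        3 * (2 * N + 1) * (ε * (N * N + 4 * N)) :=
      mul_le_mul_of_nonneg_left hηle (by positivity)
    have hconj : ∀ g y : G, IsConj x (g⁻¹ * y * g) ↔ IsConj x y := by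
      intro g y
      have h1 : IsConj (g⁻¹ * y * g) y := isConj_iff.2 ⟨g, by group⟩
      exact ⟨fun h => h.trans h1, fun h => h.trans h1.symm⟩
    -- the cochain seen from the target
    set d : G → G → ℝ := fun g y => if IsConj x y then c g (g⁻¹ * y * g) else 0 with hd
    have hdb : ∀ g, ∃ M, ∀ y, |d g y| ≤ M := by
      intro g
      obtain ⟨M, hM⟩ := hcb g
      refine ⟨max M 0, fun y => ?_⟩
      by_cases hy : IsConj x y
      · simp only [hd, hy, if_true]
        exact (hM _ ((hconj g y).2 hy)).trans (le_max_left _ _)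
      · simp only [hd, if_neg hy, abs_zero]
        exact le_max_right _ _
    have hdx : ∀ y, IsConj x y → d y y = c y y := by
      intro y hy
      simp only [hd, hy, if_true]
      congr 1
      group
    have hdm : ∀ g ∈ S, ∀ h ∈ S, ∀ y, |d g y + d h (g⁻¹ * y * g) - d (g * h) y| ≤ ε := by
      intro g hg h hh y
      by_cases hy : IsConj x y
      · have hy1 : IsConj x (g⁻¹ * y * g) := (hconj g y).2 hy
        have hy2 : IsConj x (h⁻¹ * (g⁻¹ * y * g) * h) := (hconj h _).2 hy1
        simp only [hd, hy, hy1, if_true]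
        have h3 := hcm g hg h hh _ hy2
        rw [show h * (h⁻¹ * (g⁻¹ * y * g) * h) * h⁻¹ = g⁻¹ * y * g by group] at h3
        rw [show (g * h)⁻¹ * y * (g * h) = h⁻¹ * (g⁻¹ * y * g) * h by group, abs_sub_comm]
        refine le_trans (le_of_eq ?_) h3
        congr 1
        ring
      · have hy1 : ¬ IsConj x (g⁻¹ * y * g) := fun h => hy ((hconj g y).1 h)
        simp only [hd, if_neg hy, if_neg hy1, add_zero, sub_zero, abs_zero]
        exact hε.le
    let w : ℝ → G → (G →ᵇ D) := fun t g => wmul D (fun y => cl t * d g y)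
    let a : G → (G →ᵇ D) := fun g => constL G D (e g)
    have han : ∀ g, ‖a g‖ = ‖e g‖ := fun g => BoundedContinuousFunction.norm_const_eq (e g)
    have _ : Nontrivial (G →ᵇ D) := ⟨⟨constL G D 1, 0, fun h => one_ne_zero (α := D) (by
      have h1 := DFunLike.congr_fun h (1 : G)
      exact h1)⟩⟩
    have hcurv : ∀ (t : ℝ) (g h y : G), ‖Complex.exp (Complex.I * ((cl t * d g y : ℝ) : ℂ)) *
        Complex.exp (Complex.I * ((cl t * d h (g⁻¹ * y * g) : ℝ) : ℂ)) -
        Complex.exp (Complex.I * ((cl t * d (g * h) y : ℝ) : ℂ))‖ ≤ δ (g, h) := by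
      intro t g h y
      have e1 : Complex.exp (Complex.I * ((cl t * d g y : ℝ) : ℂ)) *
          Complex.exp (Complex.I * ((cl t * d h (g⁻¹ * y * g) : ℝ) : ℂ)) =
          Complex.exp (Complex.I * ((cl t * (d g y + d h (g⁻¹ * y * g)) : ℝ) : ℂ)) := by
        rw [← Complex.exp_add]
        congr 1
        push_cast
        ring
      rw [e1]
      by_cases hg : g ∈ S
      · by_cases hh : h ∈ S
        · refine (exp_lip _ _).trans ?_
          rw [← mul_sub, abs_mul]
          have h1 := hdm g hg h hh y
          have h2 := mul_le_mul (cl_abs t) h1 (abs_nonneg _) zero_le_one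
          rw [one_mul] at h2
          refine h2.trans ?_
          have := hχ0 g
          have := hχ0 h
          simp only [hδ]
          linarith
        · have h1 : χ h = 1 := by simp only [hχ, if_neg hh]
          have h2 : ∀ r : ℝ, ‖Complex.exp (Complex.I * ((r : ℝ) : ℂ))‖ = 1 := fun r => by
            rw [mul_comm Complex.I, Complex.norm_exp_ofReal_mul_I]
          refine (norm_sub_le _ _).trans ?_
          rw [h2, h2]
          have := hχ0 g
          simp only [hδ, h1]
          linarith
      · have h1 : χ g = 1 := by simp only [hχ, if_neg hg]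
        have h2 : ∀ r : ℝ, ‖Complex.exp (Complex.I * ((r : ℝ) : ℂ))‖ = 1 := fun r => by
          rw [mul_comm Complex.I, Complex.norm_exp_ofReal_mul_I]
        refine (norm_sub_le _ _).trans ?_
        rw [h2, h2]
        have := hχ0 h
        simp only [hδ, h1]
        linarith
    have key := approx_deformation A w ?_ ?_ ?_ ?_ a ?_ ?_ ?_ δ hδ0 ?_ ?_
      (3 * (2 * N + 1) * (ε * (N * N + 4 * N))) hε16 ?_
    · -- the two traces
      have hval : ∀ t, ∑' g, A.fn g (w t g * a g) = ∑' g : {g // IsConj x g},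
          Complex.exp (Complex.I * ((cl t * c g g : ℝ) : ℂ)) * tr (e g) := by
        intro t
        have h1 : ∀ g, A.fn g (w t g * a g) = ({g | IsConj x g} : Set G).indicator
            (fun g => Complex.exp (Complex.I * ((cl t * c g g : ℝ) : ℂ)) * tr (e g)) g := by
          intro g
          by_cases hg : IsConj x g
          · rw [conjData_fn_pos x tr htr hg, Set.indicator_of_mem (by exact hg)]
            show tr ((Complex.exp (Complex.I * ((cl t * d g g : ℝ) : ℂ)) • (1 : D)) * e g) = _
            rw [hdx g hg, smul_mul_assoc, one_mul, map_smul, smul_eq_mul]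
          · rw [conjData_fn_neg x tr htr hg, Set.indicator_of_notMem (by exact hg)]
        rw [tsum_congr h1]
        exact (tsum_subtype {g | IsConj x g} _).symm
      have hT00 : ∑' g, A.fn g (w 0 g * a g) = T0 := by
        rw [hval, hT0]
        refine tsum_congr fun g => ?_
        rw [cl_zero, zero_mul, Complex.ofReal_zero, mul_zero, Complex.exp_zero, one_mul]
      have hT1 : ‖∑' g, A.fn g (w 1 g * a g) + T0‖ ≤ ‖tr‖ * (ε * (N + 2)) := by
        have htrs : Summable fun g : {g // IsConj x g} => tr (e g) := by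
          refine Summable.of_norm_bounded ((hs.subtype _).mul_left ‖tr‖) fun g => tr.le_opNorm _
        have hs1 : Summable fun g : {g // IsConj x g} =>
            Complex.exp (Complex.I * ((cl 1 * c g g : ℝ) : ℂ)) * tr (e g) := by
          refine Summable.of_norm_bounded ((hs.subtype _).mul_left ‖tr‖) fun g => ?_
          rw [norm_mul, mul_comm Complex.I, Complex.norm_exp_ofReal_mul_I, one_mul]
          exact tr.le_opNorm _
        rw [hval, hT0, ← hs1.tsum_add htrs]
        have hb1 : ∀ g : {g // IsConj x g},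
            ‖Complex.exp (Complex.I * ((cl 1 * c g g : ℝ) : ℂ)) * tr (e g) + tr (e g)‖ ≤
            ‖tr‖ * (ε * ‖e g‖ + 2 * v g) := by
          intro g
          have e1 : Complex.exp (Complex.I * ((cl 1 * c g g : ℝ) : ℂ)) * tr (e g) + tr (e g) =
              (Complex.exp (Complex.I * ((cl 1 * c g g : ℝ) : ℂ)) -
                Complex.exp (Complex.I * ((Real.pi : ℝ) : ℂ))) * tr (e g) := by
            rw [mul_comm Complex.I ((Real.pi : ℝ) : ℂ), Complex.exp_pi_mul_I]
            ring
          rw [e1, norm_mul]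
          have h4 : ‖Complex.exp (Complex.I * ((cl 1 * c g g : ℝ) : ℂ)) -
                Complex.exp (Complex.I * ((Real.pi : ℝ) : ℂ))‖ ≤ ε + 2 * χ g := by
            by_cases hg : (g : G) ∈ S
            · refine (exp_lip _ _).trans ?_
              rw [cl_one, one_mul]
              have := hcx g hg g.2
              have := hχ0 (g : G)
              linarith
            · have h1 : χ (g : G) = 1 := by simp only [hχ, if_neg hg]
              have h2 : ∀ r : ℝ, ‖Complex.exp (Complex.I * ((r : ℝ) : ℂ))‖ = 1 := fun r => by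
                rw [mul_comm Complex.I, Complex.norm_exp_ofReal_mul_I]
              refine (norm_sub_le _ _).trans ?_
              rw [h2, h2, h1]
              linarith
          have h5 := tr.le_opNorm (e g)
          calc _ ≤ (ε + 2 * χ g) * (‖tr‖ * ‖e g‖) := mul_le_mul h4 h5 (norm_nonneg _) (by
                have := hχ0 (g : G)
                positivity)
            _ = _ := by simp only [hv]; ring
        have hb2 : Summable fun g : G => ‖tr‖ * (ε * ‖e g‖ + 2 * v g) :=
          ((hs.mul_left ε).add (hvs.mul_left 2)).mul_left _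
        have hb3 : ∑' g : {g // IsConj x g}, ‖tr‖ * (ε * ‖e (g : G)‖ + 2 * v g) ≤
            ∑' g : G, ‖tr‖ * (ε * ‖e g‖ + 2 * v g) :=
          Summable.tsum_subtype_le (fun g : G => ‖tr‖ * (ε * ‖e g‖ + 2 * v g)) _ (fun g => by
            have := hv0 g
            positivity) hb2
        refine (tsum_of_norm_bounded (hb2.subtype {g | IsConj x g}).hasSum hb1).trans
          (hb3.trans ?_)
        rw [tsum_mul_left, (hs.mul_left ε).tsum_add (hvs.mul_left 2), tsum_mul_left,
          tsum_mul_left]
        refine mul_le_mul_of_nonneg_left ?_ (norm_nonneg _)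
        rw [← hN]
        linarith
      rw [hT00] at key
      have e2 : 2 * T0 = (∑' g, A.fn g (w 1 g * a g) + T0) -
          (∑' g, A.fn g (w 1 g * a g) - T0) := by ring
      rw [e2]
      refine (norm_sub_le _ _).trans ?_
      refine (add_le_add hT1 key).trans (le_of_eq ?_)
      rw [hK]
      ring
    · intro g
      obtain ⟨M, hM⟩ := hdb g
      exact (wmul_cont (d g) M hM).comp cl_cont
    · intro t g b
      exact wmul_mul_norm _ b
    · intro t g h b
      ext y
      rw [BoundedContinuousFunction.mul_apply, BoundedContinuousFunction.mul_apply, conjData_act]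
      show (Complex.exp _ • (1 : D)) * b y = b y * (Complex.exp _ • (1 : D))
      rw [smul_mul_assoc, one_mul, mul_smul_comm, mul_one]
    · intro g h
      ext y
      rw [BoundedContinuousFunction.mul_apply, conjData_act]
      show Complex.exp (Complex.I * ((cl 0 * d (g * h) y : ℝ) : ℂ)) • (1 : D) =
        (Complex.exp (Complex.I * ((cl 0 * d g y : ℝ) : ℂ)) • (1 : D)) *
        (Complex.exp (Complex.I * ((cl 0 * d h (g⁻¹ * y * g) : ℝ) : ℂ)) • (1 : D))
      rw [cl_zero]
      simp
    · intro g h
      ext y; rfl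
    · simpa only [han] using hs
    · intro k
      have hsa : Summable fun h => e h * e (h⁻¹ * k) := by
        refine Summable.of_norm_bounded (hs.mul_right (∑' g, ‖e g‖)) fun h => ?_
        refine (norm_mul_le _ _).trans (mul_le_mul_of_nonneg_left ?_ (norm_nonneg _))
        exact hs.le_tsum _ fun _ _ => norm_nonneg _
      show ∑' h, constL G D (e h) * constL G D (e (h⁻¹ * k)) = constL G D (e k)
      simp only [← constL_mul]
      rw [← (constL G D).map_tsum hsa, he]
    · intro t g h b
      rw [BoundedContinuousFunction.norm_le (mul_nonneg (hδ0 _) (norm_nonneg _))]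
      intro y
      rw [BoundedContinuousFunction.mul_apply]
      show ‖((Complex.exp (Complex.I * ((cl t * d g y : ℝ) : ℂ)) • (1 : D)) *
        (Complex.exp (Complex.I * ((cl t * d h (g⁻¹ * y * g) : ℝ) : ℂ)) • (1 : D)) -
        Complex.exp (Complex.I * ((cl t * d (g * h) y : ℝ) : ℂ)) • (1 : D)) * b y‖ ≤ _
      rw [smul_mul_smul_comm, one_mul, ← sub_smul, smul_mul_assoc, one_mul, norm_smul]
      exact mul_le_mul (hcurv t g h y) (b.norm_coe_le_norm y) (norm_nonneg _) (hδ0 _)
    · simpa only [han] using hδs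
    · simpa only [han] using hηle'
  -- conclusion
  by_contra hne
  have hpos : 0 < ‖2 * T0‖ := norm_pos_iff.2 (mul_ne_zero two_ne_zero hne)
  set Q : ℝ := 3 * (2 * N + 1) * (N * N + 4 * N) with hQ
  have hQ0 : 0 ≤ Q := by positivity
  set ε : ℝ := min (1 / (16 * (Q + 1))) (‖2 * T0‖ / (2 * (K + 1))) with hε
  have hε0 : 0 < ε := lt_min (by positivity) (by positivity)
  have h1 : 3 * (2 * N + 1) * (ε * (N * N + 4 * N)) ≤ 1 / 16 := by
    have h2 : ε ≤ 1 / (16 * (Q + 1)) := min_le_left _ _
    have h3 : 3 * (2 * N + 1) * (ε * (N * N + 4 * N)) = ε * Q := by rw [hQ]; ring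
    rw [h3]
    calc ε * Q ≤ 1 / (16 * (Q + 1)) * Q := mul_le_mul_of_nonneg_right h2 hQ0
      _ ≤ 1 / 16 := by
        rw [div_mul_eq_mul_div, one_mul, div_le_div_iff₀ (by positivity) (by norm_num)]
        linarith
  have h2 := main ε hε0 h1
  have h3 : ε ≤ ‖2 * T0‖ / (2 * (K + 1)) := min_le_right _ _
  have h4 : ε * K ≤ ‖2 * T0‖ / (2 * (K + 1)) * K := mul_le_mul_of_nonneg_right h3 hK0
  have h5 : ‖2 * T0‖ / (2 * (K + 1)) * K ≤ ‖2 * T0‖ / 2 := by
    rw [div_mul_eq_mul_div, div_le_div_iff₀ (by positivity) (by norm_num)]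
    nlinarith
  linarith

end

end Vale.Agent.P184.H940
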