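import Vale.Agent.P184.R2.H940.Pot
import Vale.Agent.P184.R2.H940.Crit

/-!
# Cutting off the potential slowly gives almost cocycles
-/

noncomputable section

namespace Vale.Agent.P184.H940

theorem cl_lip (a b : ℝ) : |cl a - cl b| ≤ |a - b| := by
  unfold cl
  have h1 : |max 0 (min 1 a) - max 0 (min 1 b)| ≤ |min 1 a - min 1 b| := by
    rcases max_cases 0 (min 1 a) with ⟨h1, h2⟩ | ⟨h1, h2⟩ <;>
    rcases max_cases 0 (min 1 b) with ⟨h3, h4⟩ | ⟨h3, h4⟩ <;>
    rw [h1, h3] <;>
    rcases abs_cases (min 1 a - min 1 b) with ⟨h5, h6⟩ | ⟨h5, h6⟩ <;> rw [h5, abs_le] <;>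
    constructor <;> linarith
  have h2 : |min 1 a - min 1 b| ≤ |a - b| := by
    rcases min_cases 1 a with ⟨h1, h2⟩ | ⟨h1, h2⟩ <;>
    rcases min_cases 1 b with ⟨h3, h4⟩ | ⟨h3, h4⟩ <;>
    rw [h1, h3] <;>
    rcases abs_cases (a - b) with ⟨h5, h6⟩ | ⟨h5, h6⟩ <;> rw [h5, abs_le] <;>
    constructor <;> linarith
  exact h1.trans h2

theorem cl_of_ge {a : ℝ} (h : 1 ≤ a) : cl a = 1 := by
  unfold cl
  rw [min_eq_left h]
  exact max_eq_right zero_le_one

theorem cl_of_le {a : ℝ} (h : a ≤ 0) : cl a = 0 := by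
  unfold cl
  rw [max_eq_left]
  exact (min_le_right _ _).trans h

/-- A divergent series of reciprocals of a monotone sequence diverges along progressions. -/
theorem not_summable_prog {w : ℕ → ℝ} (hw : ∀ n, 0 < w n) (hwm : Monotone w)
    (hns : ¬ Summable fun n => 1 / w n) (c : ℕ) (hc : 0 < c) :
    ¬ Summable fun n => 1 / w (4 * n + c) := by
  intro hs
  apply hns
  have h := (summable_schlomilch_iff_of_nonneg (C := 1) (u := fun n => 4 * n + c)
    (f := fun n => 1 / w n) (fun n => (one_div_pos.2 (hw n)).le)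
    (fun m n _ hmn => one_div_le_one_div_of_le (hw m) (hwm hmn)) (fun n => by omega)
    (fun a b hab => by show 4 * a + c < 4 * b + c; omega) one_ne_zero (fun n => by
      show 4 * (n + 2) + c - (4 * (n + 1) + c) ≤ 1 • (4 * (n + 1) + c - (4 * n + c))
      rw [one_smul]; omega)).1
  apply h
  refine (hs.mul_left 4).congr fun n => ?_
  push_cast
  ring

/-- The cut-off function. -/
theorem exists_cut {w : ℕ → ℝ} (hw : ∀ n, 0 < w n) (hwm : Monotone w)
    (hns : ¬ Summable fun n => 1 / w n) (R R0 : ℕ) (hR : 0 < R) {ε : ℝ} (hε : 0 < ε) :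
    ∃ (χ : ℕ → ℝ) (R1 : ℕ), (∀ n, |χ n| ≤ 1) ∧ (∀ n ≤ R0, χ n = 1) ∧ (∀ n, R1 ≤ n → χ n = 0) ∧
      ∀ m n, m ≤ n + R → n ≤ m + R → |χ m - χ n| * ((4 * R + 1) * w (4 * n + 6 * R)) ≤ ε := by
  set K : ℝ := 4 * R + 1 with hK
  have hK0 : 0 < K := by positivity
  have hR' : (0 : ℝ) < R := by exact_mod_cast hR
  set u : ℕ → ℝ := fun n => 1 / (K * w (4 * n + 10 * R)) with hu
  have hu0 : ∀ n, 0 ≤ u n := fun n => (one_div_pos.2 (mul_pos hK0 (hw _))).le
  have hum : Antitone u := by
    intro a b hab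
    simp only [hu]
    apply one_div_le_one_div_of_le (mul_pos hK0 (hw _))
    exact mul_le_mul_of_nonneg_left (hwm (by omega)) hK0.le
  have huns : ¬ Summable u := by
    intro hs
    apply not_summable_prog hw hwm hns (10 * R) (by omega)
    refine (hs.mul_left K).congr fun n => ?_
    simp only [hu]
    have := (hw (4 * n + 10 * R)).ne'
    field_simp
  have htend := (not_summable_iff_tendsto_nat_atTop_of_nonneg hu0).1 huns
  set σ : ℕ → ℝ := fun n => ∑ i ∈ Finset.range n, u i with hσ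
  have hσm : Monotone σ := fun a b hab =>
    Finset.sum_le_sum_of_subset_of_nonneg (Finset.range_mono hab) fun n _ _ => hu0 n
  have hdiff : ∀ m k, k ≤ R → σ (m + k) - σ m ≤ R * u m := by
    intro m k hk
    simp only [hσ]
    rw [Finset.sum_range_add, add_sub_cancel_left]
    have h : ∑ n ∈ Finset.range k, u (m + n) ≤ ∑ _n ∈ Finset.range k, u m :=
      Finset.sum_le_sum fun n _ => hum (by omega)
    rw [Finset.sum_const, Finset.card_range, nsmul_eq_mul] at h
    have h2 : (k : ℝ) * u m ≤ R * u m :=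
      mul_le_mul_of_nonneg_right (by exact_mod_cast hk) (hu0 m)
    linarith
  set η : ℝ := ε / R with hη
  have hη0 : 0 < η := div_pos hε hR'
  obtain ⟨R1, hR1⟩ : ∃ R1, σ R0 + 1 / η ≤ σ R1 :=
    (htend.eventually (Filter.eventually_ge_atTop (σ R0 + 1 / η))).exists
  have key : ∀ m n, m ≤ n → n ≤ m + R → σ n - σ m ≤ R * u m := by
    intro m n hmn hnm
    obtain ⟨k, rfl⟩ := Nat.exists_eq_add_of_le hmn
    exact hdiff m k (by omega)
  have hest : ∀ m n, m ≤ n + R → n ≤ m + R →
      |cl (1 + η * (σ R0 - σ m)) - cl (1 + η * (σ R0 - σ n))| *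
        (K * w (4 * n + 6 * R)) ≤ ε := by
    intro m n h1 h2
    have h3 := cl_lip (1 + η * (σ R0 - σ m)) (1 + η * (σ R0 - σ n))
    have h4 : (1 + η * (σ R0 - σ m)) - (1 + η * (σ R0 - σ n)) = η * (σ n - σ m) := by ring
    rw [h4, abs_mul, abs_of_pos hη0] at h3
    have h5 : |σ n - σ m| ≤ R * u (min m n) := by
      rcases le_total m n with h | h
      · rw [min_eq_left h, abs_of_nonneg (sub_nonneg.2 (hσm h))]
        exact key m n h h2
      · rw [min_eq_right h, abs_sub_comm, abs_of_nonneg (sub_nonneg.2 (hσm h))]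
        exact key n m h h1
    have h6 : u (min m n) * (K * w (4 * n + 6 * R)) ≤ 1 := by
      simp only [hu]
      have h7 : w (4 * n + 6 * R) ≤ w (4 * min m n + 10 * R) := hwm (by omega)
      have h8 : 0 < K * w (4 * min m n + 10 * R) := mul_pos hK0 (hw _)
      rw [one_div, inv_mul_le_iff₀ h8, mul_one]
      exact mul_le_mul_of_nonneg_left h7 hK0.le
    have h9 : 0 ≤ K * w (4 * n + 6 * R) := (mul_pos hK0 (hw _)).le
    calc |cl (1 + η * (σ R0 - σ m)) - cl (1 + η * (σ R0 - σ n))| * (K * w (4 * n + 6 * R))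
        ≤ (η * (R * u (min m n))) * (K * w (4 * n + 6 * R)) := by
          refine mul_le_mul_of_nonneg_right (h3.trans ?_) h9
          exact mul_le_mul_of_nonneg_left h5 hη0.le
      _ = (η * R) * (u (min m n) * (K * w (4 * n + 6 * R))) := by ring
      _ ≤ (η * R) * 1 := mul_le_mul_of_nonneg_left h6 (mul_pos hη0 hR').le
      _ = ε := by rw [hη]; field_simp
  refine ⟨fun n => cl (1 + η * (σ R0 - σ n)), R1, fun n => cl_abs _, fun n hn => ?_,
    fun n hn => ?_, hest⟩
  · apply cl_of_ge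
    have := mul_nonneg hη0.le (sub_nonneg.2 (hσm hn))
    linarith
  · apply cl_of_le
    have h1 : σ R1 ≤ σ n := hσm hn
    have h2 : η * (σ R0 - σ n) ≤ η * (-(1 / η)) := mul_le_mul_of_nonneg_left (by linarith) hη0.le
    have h3 : η * (-(1 / η)) = -1 := by field_simp
    linarith

/-- The main construction. -/
theorem PotData.almostCoc {G : Type*} [Group G] {x : G} (P : PotData x)
    (hns : ¬ Summable fun n => 1 / P.w n) (hx : P.φ x ≠ 0) : AlmostCoc x := by
  classical
  intro S Y ε hε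
  set R : ℕ := 1 + ∑ g ∈ S, P.l g with hR
  have hlS : ∀ g ∈ S, P.l g ≤ R := by
    intro g hg
    have := Finset.single_le_sum (f := P.l) (fun _ _ => Nat.zero_le _) hg
    omega
  set s : G → G := fun y => if h : IsConj x y then Classical.choose (isConj_iff.1 h) else 1
    with hs
  have hsx : ∀ y, IsConj x y → s y * x * (s y)⁻¹ = y := by
    intro y hy
    have h1 : s y = Classical.choose (isConj_iff.1 hy) := by
      simp only [hs, hy, dif_pos]
    rw [h1]
    exact Classical.choose_spec (isConj_iff.1 hy)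
  set R0 : ℕ := ∑ y ∈ Y, P.rad (s y) with hR0
  have hY : ∀ y ∈ Y, P.rad (s y) ≤ R0 := fun y hy =>
    Finset.single_le_sum (f := fun y => P.rad (s y)) (fun _ _ => Nat.zero_le _) hy
  set t : ℝ := Real.pi / P.φ x with ht
  obtain ⟨χ, R1, hχ1, hχ0, hχz, hχ⟩ := exists_cut P.w_pos P.w_mono hns R R0 (by omega)
    (div_pos hε (show (0 : ℝ) < |t| + 1 by positivity))
  refine ⟨fun g y => t * χ (P.rad (s y)) * (P.F (g * s y) - P.F (s y)), ?_, ?_, ?_⟩
  · intro g
    refine ⟨|t| * ((4 * P.l g + 1) * P.w (4 * R1 + 6 * P.l g)), fun y _ => ?_⟩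
    have hw0 := P.w_pos (4 * R1 + 6 * P.l g)
    beta_reduce
    by_cases hr : R1 ≤ P.rad (s y)
    · rw [hχz _ hr, mul_zero, zero_mul, abs_zero]
      positivity
    · push Not at hr
      rw [abs_mul, abs_mul]
      have h1 := P.grad g (s y)
      have h2 : P.w (4 * P.rad (s y) + 6 * P.l g) ≤ P.w (4 * R1 + 6 * P.l g) :=
        P.w_mono (by omega)
      have h3 : |P.F (g * s y) - P.F (s y)| ≤ (4 * P.l g + 1) * P.w (4 * R1 + 6 * P.l g) :=
        h1.trans (mul_le_mul_of_nonneg_left h2 (by positivity))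
      have h4 : |t| * |χ (P.rad (s y))| ≤ |t| := by
        have := mul_le_mul_of_nonneg_left (hχ1 (P.rad (s y))) (abs_nonneg t)
        rwa [mul_one] at this
      exact mul_le_mul h4 h3 (abs_nonneg _) (abs_nonneg _)
  · intro g hg h hh y hy
    have hy' : IsConj x (h * y * h⁻¹) := hy.trans (isConj_iff.2 ⟨h, rfl⟩)
    set p := s y with hp
    set p' := s (h * y * h⁻¹) with hp'
    have hp1 := hsx y hy
    have hp2 := hsx _ hy'
    rw [← hp] at hp1
    rw [← hp'] at hp2
    -- `p' = h p z` with `z` in the centralizer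
    set z := (h * p)⁻¹ * p' with hz
    have hzc : Commute z x := by
      have h1 : p' * x * p'⁻¹ = (h * p) * x * (h * p)⁻¹ := by
        rw [hp2, ← hp1]; group
      show z * x = x * z
      calc z * x = (h * p)⁻¹ * (p' * x * p'⁻¹) * p' := by rw [hz]; group
        _ = (h * p)⁻¹ * ((h * p) * x * (h * p)⁻¹) * p' := by rw [h1]
        _ = x * z := by rw [hz]; group
    have hpz : p' = (h * p) * z := by rw [hz]; group
    have hrad : P.rad p' = P.rad (h * p) := by rw [hpz]; exact P.rad_mul _ hzc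
    have hF1 : P.F p' = P.F (h * p) + P.φ z := by rw [hpz]; exact P.F_mul _ hzc
    have hF2 : P.F (g * p') = P.F (g * (h * p)) + P.φ z := by
      rw [hpz, ← mul_assoc]; exact P.F_mul _ hzc
    have hexp : t * χ (P.rad p) * (P.F (g * h * p) - P.F p) -
        t * χ (P.rad p') * (P.F (g * p') - P.F p') - t * χ (P.rad p) * (P.F (h * p) - P.F p) =
        t * ((χ (P.rad p) - χ (P.rad (h * p))) * (P.F (g * (h * p)) - P.F (h * p))) := by
      rw [hrad, hF1, hF2, mul_assoc g h p]
      ring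
    simp only [← hp, ← hp']
    rw [hexp, abs_mul, abs_mul]
    have h1 := P.grad g (h * p)
    have h2 : P.l g ≤ R := hlS g hg
    have h3 : P.l h ≤ R := hlS h hh
    have h4 := P.rad_left_le h p
    have h5 := P.rad_left_ge h p
    have h6 := hχ (P.rad p) (P.rad (h * p)) (by omega) (by omega)
    have h7 : |P.F (g * (h * p)) - P.F (h * p)| ≤
        (4 * R + 1) * P.w (4 * P.rad (h * p) + 6 * R) := by
      refine h1.trans ?_
      have h8 : P.w (4 * P.rad (h * p) + 6 * P.l g) ≤ P.w (4 * P.rad (h * p) + 6 * R) :=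
        P.w_mono (by omega)
      have h9 : (4 * (P.l g : ℝ) + 1) ≤ 4 * R + 1 := by
        have : (P.l g : ℝ) ≤ R := by exact_mod_cast h2
        linarith
      exact mul_le_mul h9 h8 (P.w_pos _).le (by positivity)
    have h8 : |χ (P.rad p) - χ (P.rad (h * p))| * |P.F (g * (h * p)) - P.F (h * p)| ≤
        ε / (|t| + 1) :=
      (mul_le_mul_of_nonneg_left h7 (abs_nonneg _)).trans h6
    calc |t| * (|χ (P.rad p) - χ (P.rad (h * p))| * |P.F (g * (h * p)) - P.F (h * p)|)
        ≤ |t| * (ε / (|t| + 1)) := mul_le_mul_of_nonneg_left h8 (abs_nonneg _)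
      _ ≤ (|t| + 1) * (ε / (|t| + 1)) :=
          mul_le_mul_of_nonneg_right (by linarith) (by positivity)
      _ = ε := by field_simp
  · intro y hyY hy
    have h1 := hsx y hy
    have h2 : y * s y = s y * x := by
      calc y * s y = (s y * x * (s y)⁻¹) * s y := by rw [h1]
        _ = s y * x := by group
    simp only
    rw [h2, P.F_mul _ (Commute.refl x), hχ0 _ (hY y hyY), add_sub_cancel_left, ht, mul_one,
      div_mul_cancel₀ _ hx, sub_self, abs_zero]
    exact hε.le

end Vale.Agent.P184.H940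
end
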