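import Vale.Agent.P184.R2.H940.Crit

/-!
# Almost cocycles on the class of an element kill the traces of all idempotent matrices
-/

noncomputable section
open scoped Topology

namespace Vale.Agent.P184.H940

open Vale.Agent.P184

section Mat

attribute [local instance] Matrix.linftyOpNormedRing Matrix.linftyOpNormedAlgebra

/-- If there are almost cocycles on the class of `x`, all traces vanish at `x`. -/
theorem vanishesAt_of_almostCoc {G : Type*} [Group G] {x : G} (hx : AlmostCoc x) :
    VanishesAt x := by
  intro q e he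
  rcases Nat.eq_zero_or_pos q with hq | hq
  · subst hq
    unfold tau
    simp
  have _ : Nonempty (Fin q) := ⟨⟨0, hq⟩⟩
  let E : G → Matrix (Fin q) (Fin q) ℂ := fun g => Matrix.of fun i j => e i j g
  let tr : Matrix (Fin q) (Fin q) ℂ →L[ℂ] ℂ :=
    LinearMap.toContinuousLinearMap (Matrix.traceLinearMap (Fin q) ℂ ℂ)
  have hEs : Summable fun g => ‖E g‖ := by
    refine Summable.of_nonneg_of_le (fun _ => norm_nonneg _) (fun g => mat_norm_le (E g)) ?_
    exact summable_sum fun i _ => summable_sum fun j _ => he.1 i j
  have hEi : ∀ k, ∑' h, E h * E (h⁻¹ * k) = E k := by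
    intro k
    have hsa : Summable fun h => E h * E (h⁻¹ * k) := by
      refine Summable.of_norm_bounded (hEs.mul_right (∑' g, ‖E g‖)) fun h => ?_
      refine (norm_mul_le _ _).trans (mul_le_mul_of_nonneg_left ?_ (norm_nonneg _))
      exact hEs.le_tsum _ fun _ _ => norm_nonneg _
    ext i j
    rw [entry_tsum hsa]
    have h1 : ∀ h, (E h * E (h⁻¹ * k)) i j = ∑ l, e i l h * e l j (h⁻¹ * k) := by
      intro h
      rw [Matrix.mul_apply]; rfl
    rw [tsum_congr h1, Summable.tsum_finsetSum]
    · exact he.2 i j k
    · intro l _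
      refine Summable.of_norm_bounded ((he.1 i l).mul_right (∑' g, ‖e l j g‖)) fun h => ?_
      rw [norm_mul]
      refine mul_le_mul_of_nonneg_left ?_ (norm_nonneg _)
      exact (he.1 l j).le_tsum _ fun _ _ => norm_nonneg _
  have key := vanish_of_almost tr (fun a b => Matrix.trace_mul_comm a b) x hx E hEs hEi
  have hset : (ConjClasses.mk x).carrier = {g | IsConj x g} := by
    ext g
    rw [ConjClasses.mem_carrier_iff_mk_eq, ConjClasses.mk_eq_mk_iff_isConj]
    exact ⟨fun h => h.symm, fun h => IsConj.symm h⟩
  unfold tau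
  rw [hset]
  exact key

end Mat

end Vale.Agent.P184.H940
end
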