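import Vale.Agent.P184.R2.H940.Mat

/-!
# Permanence properties of the existence of almost cocycles
-/

noncomputable section

namespace Vale.Agent.P184.H940

theorem exists_conjugator {G : Type*} [Group G] (x : G) :
    ∃ s : G → G, ∀ z, IsConj x z → s z * x * (s z)⁻¹ = z := by
  classical
  refine ⟨fun z => if h : IsConj x z then Classical.choose (isConj_iff.1 h) else 1, fun z hz => ?_⟩
  simp only [hz, dif_pos]
  exact Classical.choose_spec (isConj_iff.1 hz)

theorem AlmostCoc.conj {G : Type*} [Group G] {x y : G} (h : IsConj x y) (hx : AlmostCoc x) :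
    AlmostCoc y := by
  intro S Y ε hε
  obtain ⟨c, h1, h2, h3⟩ := hx S Y ε hε
  exact ⟨c, fun g => (h1 g).imp fun M hM z hz => hM z (h.trans hz),
    fun g hg k hk z hz => h2 g hg k hk z (h.trans hz), fun z hz hz' => h3 z hz (h.trans hz')⟩

/-- Pulling back under maps which need not be homomorphisms. -/
theorem AlmostCoc.coarse {G K : Type*} [Group G] [Group K] {x : G} {y : K} (π : G → K)
    (hπ : ∀ c, Commute c x → ∃ d, Commute d y ∧ ∀ p, π (p * c) = π p * d)
    (hx : ∀ p, π (p * x) = π p * y)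
    (hfin : ∀ g, (Set.range fun p => π (g * p) * (π p)⁻¹).Finite)
    (hy : AlmostCoc y) : AlmostCoc x := by
  classical
  obtain ⟨s, hs⟩ := exists_conjugator x
  intro S Y ε hε
  obtain ⟨c, h1, h2, h3⟩ := hy (S.biUnion fun g => (hfin g).toFinset)
    (Y.image fun z => π (s z) * y * (π (s z))⁻¹) ε hε
  choose M hM using h1
  have hconj : ∀ p : G, IsConj y (π p * y * (π p)⁻¹) := fun p => isConj_iff.2 ⟨π p, rfl⟩
  refine ⟨fun g z => c (π (g * s z) * (π (s z))⁻¹) (π (s z) * y * (π (s z))⁻¹), ?_, ?_, ?_⟩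
  · intro g
    refine ⟨∑ k ∈ (hfin g).toFinset, |M k|, fun z _ => ?_⟩
    have hk : π (g * s z) * (π (s z))⁻¹ ∈ (hfin g).toFinset :=
      (hfin g).mem_toFinset.2 ⟨s z, rfl⟩
    refine (hM _ _ (hconj (s z))).trans ((le_abs_self _).trans ?_)
    exact Finset.single_le_sum (f := fun k => |M k|) (fun _ _ => abs_nonneg _) hk
  · intro g hg h hh z hz
    have hz' : IsConj x (h * z * h⁻¹) := hz.trans (isConj_iff.2 ⟨h, rfl⟩)
    have hp1 := hs z hz
    have hp2 := hs _ hz'
    set p := s z with hp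
    set p' := s (h * z * h⁻¹) with hp'
    set a := (h * p)⁻¹ * p' with ha
    have hac : Commute a x := by
      have h1 : p' * x * p'⁻¹ = (h * p) * x * (h * p)⁻¹ := by
        rw [hp2, ← hp1]; group
      show a * x = x * a
      calc a * x = (h * p)⁻¹ * (p' * x * p'⁻¹) * p' := by rw [ha]; group
        _ = (h * p)⁻¹ * ((h * p) * x * (h * p)⁻¹) * p' := by rw [h1]
        _ = x * a := by rw [ha]; group
    have hpa : p' = (h * p) * a := by rw [ha]; group
    obtain ⟨d, hd, hd2⟩ := hπ a hac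
    have e1 : π p' = π (h * p) * d := by rw [hpa, hd2]
    have e2 : π (g * p') = π (g * (h * p)) * d := by rw [hpa, ← mul_assoc g, hd2]
    have e3 : π (g * p') * (π p')⁻¹ = π (g * (h * p)) * (π (h * p))⁻¹ := by
      rw [e1, e2]; group
    have e4 : π p' * y * (π p')⁻¹ =
        (π (h * p) * (π p)⁻¹) * (π p * y * (π p)⁻¹) * (π (h * p) * (π p)⁻¹)⁻¹ := by
      rw [e1, show π (h * p) * d * y * (π (h * p) * d)⁻¹ =
        π (h * p) * (d * y * d⁻¹) * (π (h * p))⁻¹ by group, show d * y * d⁻¹ = y by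
          rw [hd.eq]; group]
      group
    have e5 : π (g * h * p) * (π p)⁻¹ =
        (π (g * (h * p)) * (π (h * p))⁻¹) * (π (h * p) * (π p)⁻¹) := by
      rw [mul_assoc g h p]; group
    simp only [← hp, ← hp']
    rw [e3, e4, e5]
    refine h2 _ ?_ _ ?_ _ (hconj p)
    · exact Finset.mem_biUnion.2 ⟨g, hg, (hfin g).mem_toFinset.2 ⟨h * p, rfl⟩⟩
    · exact Finset.mem_biUnion.2 ⟨h, hh, (hfin h).mem_toFinset.2 ⟨p, rfl⟩⟩
  · intro z hzY hz
    have h1 := hs z hz
    have h2 : z * s z = s z * x := by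
      calc z * s z = (s z * x * (s z)⁻¹) * s z := by rw [h1]
        _ = s z * x := by group
    simp only
    rw [h2, hx]
    exact h3 _ (Finset.mem_image.2 ⟨z, hzY, rfl⟩) (hconj _)

theorem AlmostCoc.hom {G K : Type*} [Group G] [Group K] (f : G →* K) {x : G}
    (hx : AlmostCoc (f x)) : AlmostCoc x := by
  refine AlmostCoc.coarse f (fun c hc => ⟨f c, hc.map f, fun p => map_mul f p c⟩)
    (fun p => map_mul f p x) (fun g => ?_) hx
  refine (Set.finite_singleton (f g)).subset ?_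
  rintro _ ⟨p, rfl⟩
  simp only [map_mul, mul_inv_cancel_right, Set.mem_singleton_iff]

/-- Roots. -/
theorem AlmostCoc.of_pow {G : Type*} [Group G] {x : G} {k : ℕ} (hk : 0 < k)
    (hx : AlmostCoc (x ^ k)) : AlmostCoc x := by
  classical
  intro S Y ε hε
  have hk' : (0 : ℝ) < k := by exact_mod_cast hk
  obtain ⟨c, h1, h2, h3⟩ := hx (S ∪ Y.biUnion fun z => (Finset.range (k + 1)).image fun j => z ^ j)
    (Y.image fun z => z ^ k) (ε / (k + 2)) (by positivity)
  have hε' : 0 < ε / (k + 2) := by positivity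
  have hpow : ∀ z, IsConj x z → IsConj (x ^ k) (z ^ k) := by
    intro z hz
    obtain ⟨a, ha⟩ := isConj_iff.1 hz
    exact isConj_iff.2 ⟨a, by rw [← conj_pow, ha]⟩
  refine ⟨fun g z => k * c g (z ^ k), ?_, ?_, ?_⟩
  · intro g
    obtain ⟨M, hM⟩ := h1 g
    refine ⟨k * M, fun z hz => ?_⟩
    rw [abs_mul, abs_of_pos hk']
    exact mul_le_mul_of_nonneg_left (hM _ (hpow z hz)) hk'.le
  · intro g hg h hh z hz
    have h4 := h2 g (Finset.mem_union_left _ hg) h (Finset.mem_union_left _ hh) (z ^ k) (hpow z hz)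
    rw [← conj_pow] at h4
    have h5 : (k : ℝ) * c (g * h) (z ^ k) - k * c g ((h * z * h⁻¹) ^ k) - k * c h (z ^ k) =
        k * (c (g * h) (z ^ k) - c g ((h * z * h⁻¹) ^ k) - c h (z ^ k)) := by ring
    simp only
    rw [h5, abs_mul, abs_of_pos hk']
    calc (k : ℝ) * |c (g * h) (z ^ k) - c g ((h * z * h⁻¹) ^ k) - c h (z ^ k)|
        ≤ k * (ε / (k + 2)) := mul_le_mul_of_nonneg_left h4 hk'.le
      _ ≤ (k + 2) * (ε / (k + 2)) := mul_le_mul_of_nonneg_right (by linarith) hε'.le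
      _ = ε := by field_simp
  · intro z hzY hz
    have hmem : ∀ j ≤ k, z ^ j ∈ S ∪ Y.biUnion fun z => (Finset.range (k + 1)).image
        fun j => z ^ j := fun j hj => Finset.mem_union_right _ (Finset.mem_biUnion.2
      ⟨z, hzY, Finset.mem_image.2 ⟨j, Finset.mem_range.2 (by omega), rfl⟩⟩)
    have key : ∀ j ≤ k, |c (z ^ j) (z ^ k) - j * c z (z ^ k)| ≤ (j + 1) * (ε / (k + 2)) := by
      intro j
      induction j with
      | zero =>
        intro _
        have h4 := h2 (z ^ 0) (hmem 0 (Nat.zero_le _)) (z ^ 0) (hmem 0 (Nat.zero_le _)) (z ^ k)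
          (hpow z hz)
        simp only [pow_zero, mul_one, one_mul, inv_one, sub_self, zero_sub, abs_neg] at h4
        simp only [pow_zero, CharP.cast_eq_zero, zero_mul, sub_zero, zero_add, one_mul]
        exact h4
      | succ j ih =>
        intro hj
        have h4 := h2 (z ^ 1) (hmem 1 (by omega)) (z ^ j) (hmem j (by omega)) (z ^ k) (hpow z hz)
        have h5 : z ^ j * z ^ k * (z ^ j)⁻¹ = z ^ k := by
          rw [← pow_add, add_comm, pow_add]; group
        rw [h5, pow_one, ← pow_succ'] at h4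
        have h6 := ih (by omega)
        have h7 : c (z ^ (j + 1)) (z ^ k) - ((j + 1 : ℕ) : ℝ) * c z (z ^ k) =
            (c (z ^ (j + 1)) (z ^ k) - c z (z ^ k) - c (z ^ j) (z ^ k)) +
            (c (z ^ j) (z ^ k) - j * c z (z ^ k)) := by push_cast; ring
        rw [h7]
        refine (abs_add_le _ _).trans ?_
        push_cast
        linarith
    have h4 := key k le_rfl
    have h5 := h3 (z ^ k) (Finset.mem_image.2 ⟨z, hzY, rfl⟩) (hpow z hz)
    have h6 : k * c z (z ^ k) - Real.pi = -(c (z ^ k) (z ^ k) - k * c z (z ^ k)) +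
        (c (z ^ k) (z ^ k) - Real.pi) := by ring
    simp only
    rw [h6]
    refine (abs_add_le _ _).trans ?_
    rw [abs_neg]
    have h7 : ((k : ℝ) + 1) * (ε / (k + 2)) + ε / (k + 2) = ε := by field_simp; ring
    linarith

/-- The existence of almost cocycles is a local property. -/
theorem almostCoc_of_local {G : Type*} [Group G] {x : G}
    (h : ∀ (S : Finset G) (hx : x ∈ Subgroup.closure (S : Set G)),
      AlmostCoc (⟨x, hx⟩ : Subgroup.closure (S : Set G))) : AlmostCoc x := by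
  classical
  obtain ⟨s, hs⟩ := exists_conjugator x
  intro S Y ε hε
  set T : Finset G := insert x (S ∪ Y.image s) with hT
  set H := Subgroup.closure (T : Set G) with hH
  have hTH : ∀ g ∈ T, g ∈ H := fun g hg => Subgroup.subset_closure hg
  have hxH : x ∈ H := hTH x (Finset.mem_insert_self _ _)
  have hSH : ∀ g ∈ S, g ∈ H := fun g hg =>
    hTH g (Finset.mem_insert_of_mem (Finset.mem_union_left _ hg))
  have hYH : ∀ z ∈ Y, s z ∈ H := fun z hz =>
    hTH _ (Finset.mem_insert_of_mem (Finset.mem_union_right _ (Finset.mem_image.2 ⟨z, hz, rfl⟩)))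
  obtain ⟨c, h1, h2, h3⟩ := h T hxH (S.subtype (· ∈ H)) (Y.subtype (· ∈ H)) ε hε
  -- the class in the subgroup
  set P : G → Prop := fun z => ∃ hz : z ∈ H, IsConj (⟨x, hxH⟩ : H) ⟨z, hz⟩ with hP
  have hPc : ∀ g ∈ H, ∀ z, P (g * z * g⁻¹) ↔ P z := by
    have aux : ∀ g ∈ H, ∀ z, P z → P (g * z * g⁻¹) := by
      rintro g hg z ⟨hz, hc⟩
      refine ⟨H.mul_mem (H.mul_mem hg hz) (H.inv_mem hg), hc.trans ?_⟩
      exact isConj_iff.2 ⟨⟨g, hg⟩, rfl⟩
    intro g hg z
    refine ⟨fun h => ?_, aux g hg z⟩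
    have h4 := aux g⁻¹ (H.inv_mem hg) _ h
    have h5 : g⁻¹ * (g * z * g⁻¹) * g⁻¹⁻¹ = z := by group
    rwa [h5] at h4
  set d : G → G → ℝ := fun g z => if hg : g ∈ H then
    (if hz : P z then c ⟨g, hg⟩ ⟨z, hz.choose⟩ else 0) else 0 with hd
  have hd1 : ∀ g (hg : g ∈ H) z (hz : P z), d g z = c ⟨g, hg⟩ ⟨z, hz.choose⟩ := by
    intro g hg z hz
    simp only [hd, dif_pos hg, dif_pos hz]
  have hd2 : ∀ g z, ¬ P z → d g z = 0 := by
    intro g z hz
    simp only [hd, dif_neg hz]
    split <;> rfl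
  refine ⟨d, ?_, ?_, ?_⟩
  · intro g
    by_cases hg : g ∈ H
    · obtain ⟨M, hM⟩ := h1 ⟨g, hg⟩
      refine ⟨max M 0, fun z _ => ?_⟩
      by_cases hz : P z
      · rw [hd1 g hg z hz]
        exact (hM _ hz.choose_spec).trans (le_max_left _ _)
      · rw [hd2 g z hz, abs_zero]
        exact le_max_right _ _
    · refine ⟨0, fun z _ => ?_⟩
      simp only [hd, dif_neg hg, abs_zero, le_refl]
  · intro g hg h hh z _
    by_cases hz : P z
    · have hz' : P (h * z * h⁻¹) := (hPc h (hSH h hh) z).2 hz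
      rw [hd1 _ (H.mul_mem (hSH g hg) (hSH h hh)) z hz, hd1 g (hSH g hg) _ hz',
        hd1 h (hSH h hh) z hz]
      exact h2 ⟨g, hSH g hg⟩ (Finset.mem_subtype.2 hg) ⟨h, hSH h hh⟩ (Finset.mem_subtype.2 hh) _
        hz.choose_spec
    · have hz' : ¬ P (h * z * h⁻¹) := fun h4 => hz ((hPc h (hSH h hh) z).1 h4)
      rw [hd2 _ _ hz, hd2 _ _ hz', hd2 _ _ hz]
      simpa using hε.le
  · intro z hzY hz
    have hzP : P z := by
      have h4 := hs z hz
      have h5 : z ∈ H := by
        rw [← h4]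
        exact H.mul_mem (H.mul_mem (hYH z hzY) hxH) (H.inv_mem (hYH z hzY))
      exact ⟨h5, isConj_iff.2 ⟨⟨s z, hYH z hzY⟩, Subtype.ext h4⟩⟩
    rw [hd1 z hzP.choose z hzP]
    exact h3 _ (Finset.mem_subtype.2 hzY) hzP.choose_spec

end Vale.Agent.P184.H940
end
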