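import Mathlib

/-!
# A potential with slowly growing gradient

`x` is an element of a group `G`, `l : G → ℕ` is symmetric and subadditive, `φ` is a real character
of the centralizer of `x` with `-φ c ≤ w 0 + ... + w (l c - 1)` for `c` in the centralizer.  The
potential `F p = inf (φ z + 2 W (2 l (p z⁻¹)))` (infimum over `z` in the centralizer) is equivariant
and its gradient at `p` is controlled by `w` at the distance of `p` to the centralizer.
-/

noncomputable section

namespace Vale.Agent.P184.H940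

/-- sums of weights -/
def W (w : ℕ → ℝ) (m : ℕ) : ℝ := ∑ n ∈ Finset.range m, w n

section W

variable {w : ℕ → ℝ}

theorem W_nonneg (hw : ∀ n, 0 < w n) (m : ℕ) : 0 ≤ W w m :=
  Finset.sum_nonneg fun n _ => (hw n).le

theorem W_mono (hw : ∀ n, 0 < w n) : Monotone (W w) := by
  intro a b hab
  exact Finset.sum_le_sum_of_subset_of_nonneg (Finset.range_mono hab) fun n _ _ => (hw n).le

theorem W_add_le (hwm : Monotone w) (m k : ℕ) : W w (m + k) ≤ W w m + k * w (m + k) := by
  unfold W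
  rw [Finset.sum_range_add]
  have h : ∑ n ∈ Finset.range k, w (m + n) ≤ ∑ _n ∈ Finset.range k, w (m + k) :=
    Finset.sum_le_sum fun n hn => hwm (by have := Finset.mem_range.1 hn; omega)
  rw [Finset.sum_const, Finset.card_range, nsmul_eq_mul] at h
  linarith

theorem le_W_add (hwm : Monotone w) (m k : ℕ) : W w m + W w k ≤ W w (m + k) := by
  unfold W
  rw [Finset.sum_range_add]
  have h : ∑ n ∈ Finset.range k, w n ≤ ∑ n ∈ Finset.range k, w (m + n) :=
    Finset.sum_le_sum fun n _ => hwm (by omega)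
  linarith

theorem W_two (hw : ∀ n, 0 < w n) (hwm : Monotone w) (m : ℕ) :
    2 * W w m + w 0 < W w (m + m + 2) := by
  have h1 := le_W_add hwm (m + m) 2
  have h2 := le_W_add hwm m m
  have h3 : W w 2 = w 0 + w 1 := by
    simp [W, Finset.sum_range_succ]
  have h4 := hw 1
  linarith

end W

/-- The data of a weighted charge. -/
structure PotData {G : Type*} [Group G] (x : G) where
  l : G → ℕ
  φ : G → ℝ
  w : ℕ → ℝ
  l_mul : ∀ g h, l (g * h) ≤ l g + l h
  l_inv : ∀ g, l g⁻¹ = l g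
  φ_mul : ∀ g h, Commute g x → Commute h x → φ (g * h) = φ g + φ h
  φ_le : ∀ g, Commute g x → φ g ≤ W w (l g)
  w_pos : ∀ n, 0 < w n
  w_mono : Monotone w

namespace PotData

variable {G : Type*} [Group G] {x : G} (P : PotData x)

theorem φ_one : P.φ 1 = 0 := by
  have h := P.φ_mul 1 1 (Commute.one_left x) (Commute.one_left x)
  rw [mul_one] at h
  linarith

theorem φ_inv {g : G} (hg : Commute g x) : P.φ g⁻¹ = -P.φ g := by
  have h := P.φ_mul g g⁻¹ hg hg.inv_left
  rw [mul_inv_cancel, P.φ_one] at h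
  linarith

theorem le_φ {g : G} (hg : Commute g x) : -W P.w (P.l g) ≤ P.φ g := by
  have h := P.φ_le g⁻¹ hg.inv_left
  rw [P.φ_inv hg, P.l_inv] at h
  linarith

/-- the value of the potential at `p` for the choice `z` -/
def val (p : G) (z : {z : G // Commute z x}) : ℝ :=
  P.φ z + 2 * W P.w (2 * P.l (p * (z : G)⁻¹))

theorem l_le (p z : G) : P.l z ≤ P.l (p * z⁻¹) + P.l p := by
  have h := P.l_mul (z * p⁻¹) p
  have h2 : P.l (z * p⁻¹) = P.l (p * z⁻¹) := by
    rw [← P.l_inv (z * p⁻¹)]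
    congr 1
    group
  have h3 : z * p⁻¹ * p = z := by group
  rw [h3, h2] at h
  exact h

theorem val_ge (p : G) (z : {z : G // Commute z x}) : -W P.w (2 * P.l p) ≤ P.val p z := by
  unfold val
  have h1 := P.le_φ z.2
  have h2 := P.l_le p z
  have h3 := W_nonneg P.w_pos (2 * P.l (p * (z : G)⁻¹))
  have h4 := W_nonneg P.w_pos (2 * P.l p)
  have h5 : W P.w (P.l z) ≤ W P.w (2 * P.l (p * (z : G)⁻¹)) + W P.w (2 * P.l p) := by
    rcases le_total (P.l (p * (z : G)⁻¹)) (P.l p) with h | h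
    · have : W P.w (P.l z) ≤ W P.w (2 * P.l p) := W_mono P.w_pos (by omega)
      linarith
    · have : W P.w (P.l z) ≤ W P.w (2 * P.l (p * (z : G)⁻¹)) := W_mono P.w_pos (by omega)
      linarith
  linarith

/-- the potential -/
def F (p : G) : ℝ := ⨅ z : {z : G // Commute z x}, P.val p z

instance : Nonempty {z : G // Commute z x} := ⟨⟨1, Commute.one_left x⟩⟩

theorem bdd (p : G) : BddBelow (Set.range (P.val p)) :=
  ⟨-W P.w (2 * P.l p), by rintro _ ⟨z, rfl⟩; exact P.val_ge p z⟩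

theorem F_le (p : G) (z : {z : G // Commute z x}) : P.F p ≤ P.val p z := ciInf_le (P.bdd p) z

theorem exists_val (p : G) {δ : ℝ} (hδ : 0 < δ) : ∃ z, P.val p z ≤ P.F p + δ := by
  obtain ⟨z, hz⟩ := exists_lt_of_ciInf_lt (f := P.val p) (a := P.F p + δ)
    (by change P.F p < _; linarith)
  exact ⟨z, hz.le⟩

theorem F_mul_le (p : G) {h : G} (hh : Commute h x) : P.F (p * h) ≤ P.F p + P.φ h := by
  rw [← sub_le_iff_le_add]
  refine le_ciInf fun z => ?_
  have h1 := P.F_le (p * h) ⟨z * h, z.2.mul_left hh⟩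
  have h2 : P.val (p * h) ⟨z * h, z.2.mul_left hh⟩ = P.val p z + P.φ h := by
    unfold val
    simp only
    rw [P.φ_mul _ _ z.2 hh]
    have : p * h * ((z : G) * h)⁻¹ = p * (z : G)⁻¹ := by group
    rw [this]
    ring
  linarith

theorem F_mul (p : G) {h : G} (hh : Commute h x) : P.F (p * h) = P.F p + P.φ h := by
  refine le_antisymm (P.F_mul_le p hh) ?_
  have h1 := P.F_mul_le (p * h) hh.inv_left
  rw [mul_assoc, mul_inv_cancel, mul_one, P.φ_inv hh] at h1
  linarith

/-- the distance to the centralizer -/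
def rad (p : G) : ℕ := sInf (Set.range fun z : {z : G // Commute z x} => P.l (p * (z : G)⁻¹))

theorem rad_le (p : G) {z : G} (hz : Commute z x) : P.rad p ≤ P.l (p * z⁻¹) :=
  Nat.sInf_le ⟨⟨z, hz⟩, rfl⟩

theorem exists_rad (p : G) : ∃ z : G, Commute z x ∧ P.l (p * z⁻¹) = P.rad p := by
  obtain ⟨z, hz⟩ := Nat.sInf_mem (s := Set.range fun z : {z : G // Commute z x} =>
    P.l (p * (z : G)⁻¹)) ⟨_, ⟨⟨1, Commute.one_left x⟩, rfl⟩⟩
  exact ⟨z, z.2, hz⟩

theorem rad_mul_le (p : G) {h : G} (hh : Commute h x) : P.rad (p * h) ≤ P.rad p := by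
  obtain ⟨z, hz, hz2⟩ := P.exists_rad p
  have h1 := P.rad_le (p * h) (hz.mul_left hh)
  have h2 : p * h * (z * h)⁻¹ = p * z⁻¹ := by group
  rw [h2, hz2] at h1
  exact h1

theorem rad_mul (p : G) {h : G} (hh : Commute h x) : P.rad (p * h) = P.rad p := by
  refine le_antisymm (P.rad_mul_le p hh) ?_
  have h1 := P.rad_mul_le (p * h) hh.inv_left
  rwa [mul_assoc, mul_inv_cancel, mul_one] at h1

theorem rad_left_le (g p : G) : P.rad (g * p) ≤ P.l g + P.rad p := by
  obtain ⟨z, hz, hz2⟩ := P.exists_rad p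
  have h1 := P.rad_le (g * p) hz
  have h2 := P.l_mul g (p * z⁻¹)
  rw [← mul_assoc, hz2] at h2
  exact h1.trans h2

theorem rad_left_ge (g p : G) : P.rad p ≤ P.l g + P.rad (g * p) := by
  have h := P.rad_left_le g⁻¹ (g * p)
  rw [inv_mul_cancel_left, P.l_inv] at h
  exact h

/-- one-sided gradient bound at a point closest to the centralizer -/
theorem grad_one (g p : G) (hp : P.l p = P.rad p) :
    P.F (g * p) ≤ P.F p + (4 * P.l g + 1) * P.w (4 * P.rad p + 2 * P.l g) := by
  obtain ⟨z, hz⟩ := P.exists_val p (P.w_pos 0)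
  set m := P.l (p * (z : G)⁻¹) with hm
  have h1 : P.rad p ≤ m := P.rad_le p z.2
  -- the near minimizer is not far
  have h2 : P.F p ≤ 2 * W P.w (2 * P.rad p) := by
    have h := P.F_le p ⟨1, Commute.one_left x⟩
    unfold val at h
    simp only [inv_one, mul_one] at h
    rw [P.φ_one, hp] at h
    linarith
  have h3 : W P.w (2 * m) ≤ P.val p z := by
    unfold val
    have h4 := P.le_φ z.2
    have h5 := P.l_le p z
    have h6 : W P.w (P.l z) ≤ W P.w (2 * m) := W_mono P.w_pos (by omega)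
    rw [← hm]
    linarith
  have h4 : W P.w (2 * m) < W P.w (2 * P.rad p + 2 * P.rad p + 2) := by
    have := W_two P.w_pos P.w_mono (2 * P.rad p)
    linarith
  have h5 : m ≤ 2 * P.rad p := by
    by_contra hcon
    push Not at hcon
    have := W_mono P.w_pos (show 2 * P.rad p + 2 * P.rad p + 2 ≤ 2 * m by omega)
    linarith
  -- the value at the translate
  have h6 := P.F_le (g * p) z
  have h7 : P.val (g * p) z ≤ P.φ z + 2 * W P.w (2 * m + 2 * P.l g) := by
    unfold val
    have h := P.l_mul g (p * (z : G)⁻¹)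
    rw [← mul_assoc] at h
    have := W_mono P.w_pos (show 2 * P.l (g * p * (z : G)⁻¹) ≤ 2 * m + 2 * P.l g by omega)
    linarith
  have h8 := W_add_le P.w_mono (2 * m) (2 * P.l g)
  have h9 : P.w (2 * m + 2 * P.l g) ≤ P.w (4 * P.rad p + 2 * P.l g) := P.w_mono (by omega)
  have h10 : P.w 0 ≤ P.w (4 * P.rad p + 2 * P.l g) := P.w_mono (Nat.zero_le _)
  have h11 : P.val p z = P.φ z + 2 * W P.w (2 * m) := rfl
  have h12 : ((2 * P.l g : ℕ) : ℝ) * P.w (2 * m + 2 * P.l g) ≤
      (2 * P.l g : ℕ) * P.w (4 * P.rad p + 2 * P.l g) :=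
    mul_le_mul_of_nonneg_left h9 (Nat.cast_nonneg _)
  push_cast at h8 h12
  nlinarith

/-- one-sided gradient bound -/
theorem grad_le (g p : G) :
    P.F (g * p) ≤ P.F p + (4 * P.l g + 1) * P.w (4 * P.rad p + 2 * P.l g) := by
  obtain ⟨z, hz, hz2⟩ := P.exists_rad p
  have h1 : P.rad (p * z⁻¹) = P.rad p := P.rad_mul p hz.inv_left
  have h2 := P.grad_one g (p * z⁻¹) (by rw [hz2, h1])
  rw [h1, ← mul_assoc, P.F_mul _ hz.inv_left, P.F_mul _ hz.inv_left] at h2
  linarith

/-- the gradient bound -/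
theorem grad (g p : G) :
    |P.F (g * p) - P.F p| ≤ (4 * P.l g + 1) * P.w (4 * P.rad p + 6 * P.l g) := by
  have h1 := P.grad_le g p
  have h2 := P.grad_le g⁻¹ (g * p)
  rw [inv_mul_cancel_left, P.l_inv] at h2
  have h3 := P.rad_left_le g p
  have h4 : P.w (4 * P.rad p + 2 * P.l g) ≤ P.w (4 * P.rad p + 6 * P.l g) := P.w_mono (by omega)
  have h5 : P.w (4 * P.rad (g * p) + 2 * P.l g) ≤ P.w (4 * P.rad p + 6 * P.l g) :=
    P.w_mono (by omega)
  have h6 : (0 : ℝ) ≤ 4 * P.l g + 1 := by positivity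
  have h7 := mul_le_mul_of_nonneg_left h4 h6
  have h8 := mul_le_mul_of_nonneg_left h5 h6
  rw [abs_le]
  constructor <;> linarith

end PotData

end Vale.Agent.P184.H940
end
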